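import Vale.Agent.P161.Stab

/-!
The infinite-volume limit, its law, and the factor map.
-/

open MeasureTheory ProbabilityTheory Filter Topology Finset Function
open scoped unitInterval ENNReal NNReal Classical BoundedContinuousFunction

namespace Vale.Agent.P161

open Vale.Agent.P143 (Q Q_spec measurable_Q integral_Q lintegral_swap ae_injective)

variable {V K : Type} {T : SimpleGraph V} {θ ε l : ℝ} {d : ℕ}

theorem ae_summable {Ω : Type} [MeasurableSpace Ω] {μ : Measure Ω} [IsProbabilityMeasure μ]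
    {X : ℕ → Ω → ℝ} (mX : ∀ n, Measurable (X n)) (iX : ∀ n, Integrable (fun ω => X n ω ^ 2) μ)
    {C q : ℝ} (q0 : 0 < q) (q1 : q < 1) (h : ∀ n, ∫ ω, X n ω ^ 2 ∂μ ≤ C * (q ^ 2) ^ n) :
    ∀ᵐ ω ∂μ, Summable fun n => ‖X n ω‖ := by
  have k : ∀ n, ∫⁻ ω, ‖X n ω‖ₑ ∂μ ≤ ENNReal.ofReal ((C + 1) * q ^ n) := fun n => by
    have p : 0 < q ^ n := by positivity
    have i1 : Integrable (fun ω => (q ^ n)⁻¹ * X n ω ^ 2 + q ^ n) μ :=
      ((iX n).const_mul _).add (integrable_const _)
    calc _ ≤ ∫⁻ ω, ENNReal.ofReal ((q ^ n)⁻¹ * X n ω ^ 2 + q ^ n) ∂μ := lintegral_mono fun ω => by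
          rw [← ofReal_norm_eq_enorm]
          refine ENNReal.ofReal_le_ofReal (le_of_mul_le_mul_left ?_ p)
          rw [mul_add, mul_inv_cancel_left₀ p.ne', Real.norm_eq_abs, ← sq_abs]
          nlinarith [sq_nonneg (|X n ω| - q ^ n), abs_nonneg (X n ω)]
      _ = _ := (ofReal_integral_eq_lintegral_ofReal i1 (ae_of_all _ fun ω => by positivity)).symm
      _ ≤ _ := by
          refine ENNReal.ofReal_le_ofReal ?_
          rw [integral_add ((iX n).const_mul _) (integrable_const _), integral_const_mul]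
          have := mul_le_mul_of_nonneg_left (h n) (inv_pos.2 p).le
          rw [← pow_mul, mul_comm 2, pow_mul, sq, ← mul_assoc, ← mul_assoc, mul_comm _ C, mul_assoc C,
            inv_mul_cancel₀ p.ne'] at this
          simp only [integral_const, probReal_univ, one_smul]
          linarith
  have C0 : 0 ≤ C + 1 := by
    have := (integral_nonneg fun ω => sq_nonneg (X 0 ω)).trans (h 0)
    simp at this
    linarith
  have s1 : ∫⁻ ω, ∑' n, ‖X n ω‖ₑ ∂μ ≠ ⊤ := by
    rw [lintegral_tsum fun n => (mX n).enorm.aemeasurable]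
    refine ne_top_of_le_ne_top ?_ (ENNReal.tsum_le_tsum k)
    rw [← ENNReal.ofReal_tsum_of_nonneg (fun n => by positivity)
      ((summable_geometric_of_lt_one q0.le q1).mul_left _)]
    exact ENNReal.ofReal_ne_top
  filter_upwards [ae_lt_top (Measurable.ennreal_tsum fun n => (mX n).enorm) s1] with ω hω
  exact tsum_enorm_ne_top_iff_summable_norm.1 hω.ne

/-- Admissible parameters. -/
structure Par (T : SimpleGraph V) (d : ℕ) (θ ε l : ℝ) : Prop where
  tree : T.IsTree
  reg : ∀ v, (T.neighborSet v).encard = d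
  hd : 2 ≤ d
  h0 : 0 ≤ θ
  h1 : θ ^ 2 ≤ 1 / 2
  e0 : 0 < ε
  e1 : ε ≤ 1
  hl : 1 < l
  hr : l ^ 2 * θ ^ 2 * (d - 1) < 1
  he : ε ^ 2 * (4 * (2 ^ 18 * (l / (l - 1)) ^ 2) + 5) ≤ (1 - l ^ 2 * θ ^ 2 * (d - 1)) / 2

theorem Par.lt_one (P : Par T d θ ε l) : θ < 1 := by nlinarith [P.h1]

noncomputable def Wlim (T : SimpleGraph V) (θ ε : ℝ) (τ : V → I) (z : V × ℕ → I) (j : V × ℕ) : ℝ :=
  limsup (fun R => Wf T θ ε (ball T j.1 R) τ z j) atTop

theorem mW (D : Finset V) (τ : V → I) (κ : V × ℕ → K) (j : V × ℕ) :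
    Measurable fun ω : K → I => Wf T θ ε D τ (fun i => ω (κ i)) j :=
  measurable_Wf (τ := fun _ => τ) (z := fun (ω : K → I) i => ω (κ i)) (fun _ => measurable_const)
    (fun _ => measurable_pi_apply _) j

theorem ae_diff (P : Par T d θ ε l) {τ : V → I} (hτ : Injective τ) {κ : V × ℕ → K}
    (hκ : Injective κ) (j : V × ℕ) {D : ℕ → Finset V} (hD : ∀ R, Cvx T (D R))
    (h : ∀ R, ball T j.1 R ⊆ D R) : ∀ᵐ ω ∂P143.iid K, Summable fun R =>
      ‖Wf T θ ε (ball T j.1 R) τ (fun i => ω (κ i)) j - Wf T θ ε (D R) τ (fun i => ω (κ i)) j‖ := by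
  have l0 : 0 < l := by linarith [P.hl]
  refine ae_summable (fun R => (mW _ _ _ _).sub (mW _ _ _ _)) (fun R => ?_) (C := 2 * 3 ^ j.2)
    (inv_pos.2 l0) (inv_lt_one_of_one_lt₀ P.hl) fun R => ?_
  · refine Integrable.of_bound (((mW _ _ _ _).sub (mW _ _ _ _)).pow_const 2).aestronglyMeasurable 4
      (ae_of_all _ fun ω => ?_)
    have a1 := abs_le.1 (Wf_abs (T := T) (D := ball T j.1 R) (τ := τ) (z := fun i => ω (κ i))
      P.h0 P.lt_one P.e0.le P.e1 j)
    have a2 := abs_le.1 (Wf_abs (T := T) (D := D R) (τ := τ) (z := fun i => ω (κ i))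
      P.h0 P.lt_one P.e0.le P.e1 j)
    rw [Real.norm_eq_abs, abs_of_nonneg (sq_nonneg _)]
    nlinarith
  · have := stability P.tree P.reg P.hd P.h0 P.h1 P.e0.le P.e1 P.hl P.hr P.he
      (cvx_ball P.tree P.reg j.1 R) (hD R) (h R) hτ hκ j.1 (A := (l⁻¹ ^ 2) ^ R) (by positivity)
      (fun u _ hu => ?_) (j := j) ((mem_ball P.tree P.reg).2 (by simp))
    · simpa using this
    · rw [mem_ball P.tree P.reg, not_le] at hu
      rw [inv_pow, inv_pow, ← div_eq_inv_mul, one_le_div (by positivity)]
      exact pow_le_pow_right₀ (by nlinarith [P.hl]) hu.le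

theorem ae_tendsto (P : Par T d θ ε l) {τ : V → I} (hτ : Injective τ) {κ : V × ℕ → K}
    (hκ : Injective κ) (o : V) (j : V × ℕ) : ∀ᵐ ω ∂P143.iid K,
      Tendsto (fun m => Wf T θ ε (ball T o m) τ (fun i => ω (κ i)) j) atTop
        (𝓝 (Wlim T θ ε τ (fun i => ω (κ i)) j)) := by
  filter_upwards [ae_diff P hτ hκ j (D := fun R => ball T j.1 (R + 1))
    (fun R => cvx_ball P.tree P.reg _ _) fun R u hu => by
      rw [mem_ball P.tree P.reg] at *; omega,
    ae_diff P hτ hκ j (D := fun R => ball T o (R + T.dist o j.1))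
    (fun R => cvx_ball P.tree P.reg _ _) fun R u hu => by
      rw [mem_ball P.tree P.reg] at *
      have := P.tree.connected.dist_triangle (u := o) (v := j.1) (w := u)
      omega] with ω h1 h2
  obtain ⟨a, ha⟩ := cauchySeq_tendsto_of_complete (cauchySeq_of_summable_dist
    (f := fun R => Wf T θ ε (ball T j.1 R) τ (fun i => ω (κ i)) j) (by
      simpa only [dist_eq_norm] using h1))
  rw [Wlim, ha.limsup_eq, ← tendsto_add_atTop_iff_nat (T.dist o j.1)]
  simpa using ha.sub (tendsto_zero_iff_norm_tendsto_zero.2 h2.tendsto_atTop_zero)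

theorem measurable_Wlim {Ω : Type} [MeasurableSpace Ω] {τ : Ω → V → I} {z : Ω → V × ℕ → I}
    (hτ : ∀ v, Measurable fun ω => τ ω v) (hz : ∀ j, Measurable fun ω => z ω j) (j : V × ℕ) :
    Measurable fun ω => Wlim T θ ε (τ ω) (z ω) j :=
  Measurable.limsup fun _ => measurable_Wf hτ hz j

def dec (w : V × ℕ → ℝ) (v : V) : Prop := ∀ᶠ i in atTop, 0 < ∑ k ∈ range i, w (v, k)

theorem measurable_dec (v : V) : Measurable fun w : V × ℕ → ℝ => dec w v := by
  simp only [dec, eventually_atTop]
  exact Measurable.exists fun _ => Measurable.forall fun i => measurable_const.imp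
    (measurableSet_setOfPred.1 (measurableSet_lt measurable_const (by fun_prop)))

theorem ae_dec (e0 : 0 < ε) (e1 : ε ≤ 1) {κ : V × ℕ → K} (hκ : Injective κ) (S : Finset V) (v : V) :
    ∀ᵐ ω ∂P143.iid K, dec (fun j => Q (ε * sp S j.1) (ω (κ j))) v ↔ v ∈ S := by
  have hs := em_bound e0.le e1 (abs_sp S v).le
  have mX : Measurable fun u : I => Q (ε * sp S v) u := by fun_prop
  have ev : ∀ i, MeasurePreserving (fun u : K → I => u i) (P143.iid K) volume := fun i =>
    measurePreserving_eval_infinitePi (fun _ : K => (volume : Measure I)) i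
  have id1 : ∀ i, IdentDistrib (fun u : K → I => Q (ε * sp S v) (u i))
      (fun u : I => Q (ε * sp S v) u) (P143.iid K) volume :=
    fun i => IdentDistrib.comp (u := fun u : I => Q (ε * sp S v) u)
      ⟨(ev i).measurable.aemeasurable, aemeasurable_id, by rw [(ev i).map_eq, Measure.map_id']⟩ mX
  have h := strong_law_ae_real (μ := P143.iid K) (fun i u => Q (ε * sp S v) (u (κ (v, i))))
    (Integrable.of_bound (Measurable.aestronglyMeasurable (by fun_prop)) 1
      (ae_of_all _ fun u => (Q_spec hs (u _).2).2))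
    (fun i j hij => (iIndepFun_infinitePi (X := fun (_ : K) (u : I) => Q (ε * sp S v) u)
      fun _ => mX).indepFun (hκ.ne fun h => hij (congrArg Prod.snd h)))
    (fun i => (id1 _).trans (id1 _).symm)
  rw [(id1 _).integral_eq, integral_Q hs] at h
  filter_upwards [h] with ω hω
  by_cases hv : v ∈ S
  · refine iff_of_true ?_ hv
    filter_upwards [hω.eventually (lt_mem_nhds (a := 0) (by simp [sp, hv, e0])),
      eventually_gt_atTop 0] with i h1 h2
    exact (div_pos_iff_of_pos_right (by exact_mod_cast h2)).1 h1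
  · refine iff_of_false (fun h1 => ?_) hv
    obtain ⟨i, h2, h3⟩ := (h1.and (hω.eventually (gt_mem_nhds (a := 0)
      (by simp only [sp, hv, if_false]; linarith)))).exists
    exact absurd h3 (not_lt.2 (div_nonneg h2.le (Nat.cast_nonneg _)))

theorem limit_law (P : Par T d θ ε l) {τ : V → I} (hτ : Injective τ) {κ : V × ℕ → K}
    (hκ : Injective κ) {D : Finset V} (hD : Cvx T D) (hne : D.Nonempty) :
    (P143.iid K).map (fun ω j => if j.1 ∈ D then Wlim T θ ε τ (fun i => ω (κ i)) j else 0) =
      ∑ S ∈ D.powerset, ENNReal.ofReal (wt T θ D S / 2) • (P143.iid K).map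
        fun ω (j : V × ℕ) => if j.1 ∈ D then Q (ε * sp S j.1) (ω (κ j)) else 0 := by
  obtain ⟨o, ho⟩ := id hne
  have m1 : Measurable fun (ω : K → I) (j : V × ℕ) =>
      if j.1 ∈ D then Wlim T θ ε τ (fun i => ω (κ i)) j else 0 :=
    measurable_pi_lambda _ fun j => by
      split_ifs
      · exact measurable_Wlim (τ := fun _ => τ) (z := fun (ω : K → I) i => ω (κ i))
          (fun _ => measurable_const) (fun _ => measurable_pi_apply _) j
      · exact measurable_const
  have m2 : ∀ S : Finset V, Measurable fun (ω : K → I) (j : V × ℕ) =>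
      if j.1 ∈ D then Q (ε * sp S j.1) (ω (κ j)) else 0 := fun S =>
    measurable_pi_lambda _ fun j => by split_ifs <;> fun_prop
  have := Measure.isProbabilityMeasure_map (μ := P143.iid K) m1.aemeasurable
  refine IsProjectiveLimit.unique (fun _ => rfl) fun F => Eq.symm ?_
  have mr : Measurable (F.restrict : (V × ℕ → ℝ) → _) := F.measurable_restrict
  refine ext_of_forall_lintegral_eq_of_IsFiniteMeasure fun f => ?_
  have mf : Measurable fun x => (f x : ℝ≥0∞) := f.continuous.measurable.coe_nnreal_ennreal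
  have mfr : Measurable fun a : V × ℕ → ℝ => (f (F.restrict a) : ℝ≥0∞) := mf.comp mr
  rw [lintegral_map mf mr, lintegral_map mf mr, lintegral_map mfr m1,
    lintegral_finset_sum_measure]
  simp only [lintegral_smul_measure, lintegral_map mfr (m2 _), smul_eq_mul]
  obtain ⟨C, hC⟩ : ∃ C : ℝ≥0, ∀ x, f x ≤ C := ⟨_, fun x => BoundedContinuousFunction.NNReal.upper_bound f x⟩
  have fin : ∀ g : (K → I) → F → ℝ, ∫⁻ ω, (f (g ω) : ℝ≥0∞) ∂P143.iid K ≠ ⊤ := fun g =>
    ne_top_of_le_ne_top (by simp) (lintegral_mono (g := fun _ => (C : ℝ≥0∞))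
      fun ω => ENNReal.coe_le_coe.2 (hC _))
  refine tendsto_nhds_unique_of_eventuallyEq (l := atTop) (tendsto_lintegral_of_dominated_convergence
    (F := fun m ω => (f (F.restrict fun j => if j.1 ∈ D then
      Wf T θ ε (ball T o m) τ (fun i => ω (κ i)) j else 0) : ℝ≥0∞)) (fun _ => (C : ℝ≥0∞))
    (fun m => (mf.comp mr).comp (measurable_pi_lambda _ fun j => ?_))
    (fun m => ae_of_all _ fun ω => ENNReal.coe_le_coe.2 (hC _)) (by simp) ?_) tendsto_const_nhds ?_
  · split_ifs
    exacts [mW _ _ _ _, measurable_const]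
  · filter_upwards [(eventually_all_finset F).2 fun j _ => ae_tendsto P hτ hκ o j] with ω hω
    refine ENNReal.tendsto_coe.2 ((f.continuous.tendsto _).comp (tendsto_pi_nhds.2 fun j => ?_))
    simp only [restrict]
    split_ifs
    exacts [hω j j.2, tendsto_const_nhds]
  · filter_upwards [eventually_ge_atTop (D.sup (T.dist o))] with m hm
    have sub : D ⊆ ball T o m := fun u hu => (mem_ball P.tree P.reg).2 ((le_sup hu).trans hm)
    have cb := cvx_ball P.tree P.reg o m
    have e : ∀ w : V × ℕ → ℝ, (F.restrict fun j => if j.1 ∈ D then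
        (if j ∈ ball T o m ×ˢ range (F.sup Prod.snd + 1) then w j else 0) else 0) =
        F.restrict fun j => if j.1 ∈ D then w j else 0 := fun w => by
      ext j
      simp only [restrict]
      split_ifs with h1 h2
      · rfl
      · exact absurd (mem_product.2 ⟨sub h1, mem_range.2
          (Nat.lt_succ_of_le (le_sup (f := Prod.snd) j.2))⟩) h2
      · rfl
    have h := finite_law P.tree P.h0 P.lt_one P.e0.le P.e1 cb ⟨o, sub ho⟩ hτ hκ (F.sup Prod.snd + 1)
      (g := fun w => (f (F.restrict fun j => if j.1 ∈ D then w j else 0) : ℝ≥0∞))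
      ((mf.comp mr).comp (measurable_pi_lambda _ fun j => by split_ifs <;> fun_prop))
    simp only [e] at h
    rw [h]
    let a : Finset V → ℝ≥0∞ := fun S => ∫⁻ ω, (f (F.restrict fun j : V × ℕ =>
      if j.1 ∈ D then Q (ε * sp S j.1) (ω (κ j)) else 0) : ℝ≥0∞) ∂P143.iid K
    have k : ∀ E : Finset V, ∑ S ∈ E.powerset, ENNReal.ofReal (wt T θ E S / 2) * a S =
        ENNReal.ofReal ((∑ S ∈ E.powerset, wt T θ E S * (a S).toReal) / 2) := fun E => by
      rw [sum_div, ENNReal.ofReal_sum_of_nonneg fun S _ => by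
        have := wt_pos (T := T) P.h0 P.lt_one E S; positivity]
      refine sum_congr rfl fun S _ => ?_
      rw [mul_div_right_comm, ENNReal.ofReal_mul (half_pos (wt_pos P.h0 P.lt_one E S)).le,
        ENNReal.ofReal_toReal (fin _)]
    refine (k _).trans (Eq.trans ?_ (k _).symm)
    rw [consistent P.tree hD cb sub hne fun S S' h => ?_]
    simp only [a]
    refine congrArg _ (lintegral_congr fun ω => congrArg
      (fun w : V × ℕ → ℝ => (f (F.restrict w) : ℝ≥0∞))
      (funext fun j => ?_))
    split_ifs with h1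
    · rw [h _ h1]
    · rfl

theorem fixed_law [Countable V] (P : Par T d θ ε l) {τ : V → I} (hτ : Injective τ) {κ : V × ℕ → K}
    (hκ : Injective κ) {D : Finset V} (hD : Cvx T D) (hne : D.Nonempty) (η : V → Prop)
    [DecidablePred η] :
    P143.iid K {ω | ∀ v ∈ D, dec (Wlim T θ ε τ fun i => ω (κ i)) v ↔ η v} =
      ENNReal.ofReal (wt T θ D (D.filter η) / 2) := by
  have mE : MeasurableSet {w : V × ℕ → ℝ | ∀ v ∈ D, dec w v ↔ η v} :=
    measurableSet_setOfPred.2 (Measurable.forall fun v => measurable_const.imp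
      ((measurable_dec v).iff measurable_const))
  have k : ∀ (w : V × ℕ → ℝ), ∀ v ∈ D, dec (fun j => if j.1 ∈ D then w j else 0) v ↔ dec w v :=
    fun w v hv => by simp only [dec, hv, if_true]
  have h := congrArg (fun μ : Measure (V × ℕ → ℝ) => μ {w | ∀ v ∈ D, dec w v ↔ η v})
    (limit_law P hτ hκ hD hne)
  simp only [Measure.coe_finset_sum, Finset.sum_apply, Measure.smul_apply, smul_eq_mul] at h
  rw [Measure.map_apply (measurable_pi_lambda _ fun j => ?_) mE] at h
  · refine Eq.trans (congrArg _ ?_) (h.trans ?_)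
    · ext ω
      exact forall₂_congr fun v hv => by rw [k _ v hv]
    have e : ∀ S ∈ D.powerset, (P143.iid K).map (fun ω (j : V × ℕ) =>
        if j.1 ∈ D then Q (ε * sp S j.1) (ω (κ j)) else 0) {w | ∀ v ∈ D, dec w v ↔ η v} =
        if S = D.filter η then 1 else 0 := fun S hS => by
      rw [Measure.map_apply (measurable_pi_lambda _ fun j => by split_ifs <;> fun_prop) mE,
        measure_congr (t := {_ω | S = D.filter η})]
      · split_ifs with h1 <;> simp [h1]
      filter_upwards [(eventually_all_finset D).2 fun v _ => ae_dec P.e0 P.e1 hκ S v] with ω hω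
      refine propext ((forall₂_congr fun v hv => by rw [k _ v hv, hω v hv]).trans ?_)
      change _ ↔ S = D.filter η
      constructor
      · intro h1
        ext v
        rw [mem_filter]
        exact ⟨fun h2 => ⟨mem_powerset.1 hS h2, (h1 v (mem_powerset.1 hS h2)).1 h2⟩,
          fun h2 => (h1 v h2.1).2 h2.2⟩
      · rintro rfl v hv
        simp [hv]
    rw [sum_congr rfl fun S hS => by rw [e S hS]]
    simp
  · split_ifs
    · exact measurable_Wlim (τ := fun _ => τ) (z := fun (ω : K → I) i => ω (κ i))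
        (fun _ => measurable_const) (fun _ => measurable_pi_apply _) j
    · exact measurable_const

theorem exists_split : ∃ ρ : I → ℕ → I, Measurable ρ ∧ volume.map ρ = P143.iid ℕ :=
  Measure.exists_measurable_map_eq _

noncomputable def spread (U : V → I) (k : V × ℕ) : I := exists_split.choose (U k.1) k.2

theorem measurable_spread (k : V × ℕ) : Measurable fun U : V → I => spread U k :=
  (measurable_pi_apply k.2).comp (exists_split.choose_spec.1.comp (measurable_pi_apply k.1))

theorem map_spread : (P143.iid V).map spread = P143.iid (V × ℕ) := by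
  obtain ⟨h1, h2⟩ := exists_split.choose_spec
  have h3 := Measure.infinitePi_map_pi (fun _ : V => (volume : Measure I))
    (f := fun _ => exists_split.choose) fun _ => h1
  have h4 := Measure.infinitePi_map_curry_symm fun (_ : V) (_ : ℕ) => (volume : Measure I)
  simp only [h2] at h3
  unfold P143.iid at *
  rw [← h4, ← h3, Measure.map_map (by fun_prop) (by fun_prop)]
  rfl

/-- The factor map. -/
noncomputable def Phi (T : SimpleGraph V) (θ ε : ℝ) (U : V → I) (v : V) : Bool :=
  decide (dec (Wlim T θ ε (fun v => spread U (v, 0)) fun j => spread U (j.1, j.2 + 1)) v)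

theorem measurable_sel (v : V) : Measurable fun ω : V × ℕ → I =>
    dec (Wlim T θ ε (fun v => ω (v, 0)) fun j => ω (j.1, j.2 + 1)) v :=
  (measurable_dec v).comp (measurable_pi_lambda _ (measurable_Wlim
    (τ := fun (ω : V × ℕ → I) v => ω (v, 0)) (z := fun (ω : V × ℕ → I) j => ω (j.1, j.2 + 1))
    (fun _ => measurable_pi_apply _) fun _ => measurable_pi_apply _))

theorem measurable_Phi : Measurable (Phi T θ ε) := by
  refine measurable_pi_lambda _ fun v => measurable_to_bool ?_
  have := measurableSet_setOfPred.2 ((measurable_sel (T := T) (θ := θ) (ε := ε) v).comp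
    (measurable_pi_lambda _ measurable_spread))
  refine (congrArg _ ?_).mp this
  ext x
  simp [Phi]

theorem Phi_map (P : Par T d θ ε l) (g : T ≃g T) (U : V → I) (v : V) :
    Phi T θ ε (fun v => U (g.symm v)) v = Phi T θ ε U (g.symm v) := by
  refine decide_eq_decide.2 ?_
  have := fun R k => Wf_map (θ := θ) (ε := ε) g.symm (ball T v R) (fun v => spread U (v, 0))
    (fun j => spread U (j.1, j.2 + 1)) (v, k)
  simp only [dec, Wlim, ball_map P.tree P.reg g.symm, this]
  rfl

theorem isFreeIsing [Countable V] (P : Par T d θ ε l) :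
    IsFreeIsing T θ ((iid V).map (Phi T θ ε)) := by
  change IsFreeIsing T θ ((P143.iid V).map (Phi T θ ε))
  refine ⟨Measure.isProbabilityMeasure_map measurable_Phi.aemeasurable, fun D hc η => ?_⟩
  have hD := cvx_of_connected P.tree hc
  have hne : D.Nonempty := let ⟨v⟩ := hc.nonempty; ⟨v.1, v.2⟩
  have m1 : MeasurableSet {ω : V × ℕ → I | ∀ v ∈ D,
      dec (Wlim T θ ε (fun v => ω (v, 0)) fun j => ω (j.1, j.2 + 1)) v ↔ η v = true} :=
    measurableSet_setOfPred.2 (Measurable.forall fun v => measurable_const.imp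
      ((measurable_sel v).iff measurable_const))
  have e1 : ((P143.iid V).map (Phi T θ ε)) {ξ | ∀ v ∈ D, ξ v = η v} = P143.iid (V × ℕ)
      {ω | ∀ v ∈ D, dec (Wlim T θ ε (fun v => ω (v, 0)) fun j => ω (j.1, j.2 + 1)) v ↔
        η v = true} := by
    rw [← map_spread, Measure.map_apply measurable_Phi (measurableSet_setOfPred.2
      (Measurable.forall fun v => measurable_const.imp (measurableSet_setOfPred.1
        (measurableSet_eq_fun (by fun_prop) measurable_const)))),
      Measure.map_apply (measurable_pi_lambda _ measurable_spread) m1]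
    congr 1
    ext U
    refine forall₂_congr fun v _ => ?_
    cases η v <;> simp [Phi]
  have inj := ae_injective (K := V × ℕ) (f := fun v : V => (v, 0)) fun a b h => congrArg Prod.fst h
  have hκ : Injective fun j : V × ℕ => (j.1, j.2 + 1) := fun a b h => by
    simpa [Prod.ext_iff] using h
  have w0 := wt_pos (T := T) P.h0 P.lt_one D (D.filter fun v => η v = true)
  rw [Measure.real, e1, ← lintegral_indicator_one m1,
    lintegral_swap (fun k => k.2 = 0) (measurable_one.indicator m1),
    lintegral_congr_ae (g := fun _ => ENNReal.ofReal (wt T θ D (D.filter fun v => η v = true) / 2))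
      (inj.mono fun ω h => ?_)]
  · rw [lintegral_const, measure_univ, mul_one, ENNReal.toReal_ofReal (half_pos w0).le,
      div_eq_inv_mul, one_div]
    congr 1
    refine prod_congr rfl fun e he => ?_
    induction e with
    | h u v =>
      obtain ⟨h1, h2⟩ := mk_mem_sym2_iff.1 (mem_filter.1 he).1
      simp [sp, spin, h1, h2]
  beta_reduce
  rw [← fixed_law P h hκ hD hne, ← lintegral_indicator_one (measurableSet_setOfPred.2
    (Measurable.forall fun v => measurable_const.imp (Measurable.iff ?_ measurable_const)))]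
  · refine lintegral_congr fun ω' => ?_
    simp [Set.indicator]
  · exact (measurable_dec v).comp (measurable_pi_lambda _ (measurable_Wlim
      (τ := fun _ v => ω (v, 0)) (z := fun (ω : V × ℕ → I) j => ω (j.1, j.2 + 1))
      (fun _ => measurable_const) fun _ => measurable_pi_apply _))

theorem exists_par (hT : T.IsTree) (hreg : ∀ v, (T.neighborSet v).encard = d) (hd : 3 ≤ d)
    (h0 : 0 ≤ θ) (h1 : θ ^ 2 * (d - 1) < 1) : ∃ ε l, Par T d θ ε l := by
  have hd' : (3 : ℝ) ≤ d := by exact_mod_cast hd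
  have t : Tendsto (fun l : ℝ => l ^ 2 * θ ^ 2 * (d - 1)) (𝓝[>] 1) (𝓝 (1 ^ 2 * θ ^ 2 * (d - 1))) :=
    tendsto_nhdsWithin_of_tendsto_nhds (Continuous.tendsto (by fun_prop) _)
  obtain ⟨l, l1, l2⟩ := ((t.eventually (gt_mem_nhds (a := 1) (by simpa using h1))).and
    self_mem_nhdsWithin).exists
  obtain ⟨B, hB⟩ : ∃ B, B = 4 * (2 ^ 18 * (l / (l - 1)) ^ 2) + 5 := ⟨_, rfl⟩
  have B0 : 0 < B := by rw [hB]; positivity
  have p : 0 < (1 - l ^ 2 * θ ^ 2 * (d - 1)) / 2 / B := div_pos (by linarith) B0
  refine ⟨min 1 ((1 - l ^ 2 * θ ^ 2 * (d - 1)) / 2 / B), l, hT, hreg, by omega, h0,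
    by nlinarith [sq_nonneg θ], lt_min one_pos p, min_le_left _ _, l2, l1, ?_⟩
  rw [← hB, ← le_div_iff₀ B0, sq]
  exact (mul_le_of_le_one_left (lt_min one_pos p).le (min_le_left _ _)).trans (min_le_right _ _)

theorem countable_tree (hT : T.IsTree) (hreg : ∀ v, (T.neighborSet v).encard = d) : Countable V := by
  obtain ⟨o⟩ := hT.connected.nonempty
  exact Set.countable_univ_iff.1 ((Set.countable_iUnion fun R =>
    (ball_finite hT hreg o R).countable).mono fun w _ => Set.mem_iUnion.2 ⟨T.dist o w, le_refl (T.dist o w)⟩)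

end Vale.Agent.P161
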