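import Mathlib

/-!
Definitions used in the statement of P161 (the free Ising state on a regular tree as a factor
of IID).
-/

open MeasureTheory
open scoped unitInterval Classical

namespace Vale.Agent.P161

variable {V : Type}

/-- The spin value `+1` or `-1` coded by a Boolean. -/
def spin (b : Bool) : ℝ := if b then 1 else -1

/-- `μ` is the free zero-field Ising measure with parameter `θ` on the tree `T`: a probability
measure whose cylinder probabilities on every finite connected subtree `D` are
`1/2 * ∏ (1 + θ η_u η_v) / 2`, the product running over the edges of `D`. -/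
def IsFreeIsing (T : SimpleGraph V) (θ : ℝ) (μ : Measure (V → Bool)) : Prop :=
  IsProbabilityMeasure μ ∧
    ∀ D : Finset V, (T.induce (D : Set V)).Connected → ∀ η : V → Bool,
      μ.real {ξ | ∀ v ∈ D, ξ v = η v} =
        1 / 2 * ∏ e ∈ D.sym2 with e ∈ T.edgeSet, (1 + θ * (e.map fun v => spin (η v)).mul) / 2

/-- The law of i.i.d. uniform labels of the vertices. -/
noncomputable def iid (V : Type) : Measure (V → I) := Measure.infinitePi fun _ => volume

/-- `ν` is a factor of IID on `T`: the law of `Φ U` for i.i.d. uniform labels `U`, where `Φ` is
measurable and commutes almost surely with each automorphism of `T`. -/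
def IsFactorOfIID (T : SimpleGraph V) (ν : Measure (V → Bool)) : Prop :=
  ∃ Φ : (V → I) → V → Bool, Measurable Φ ∧ (iid V).map Φ = ν ∧
    ∀ g : T ≃g T, ∀ᵐ U ∂iid V, Φ (fun v => U (g.symm v)) = fun v => Φ U (g.symm v)

end Vale.Agent.P161
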