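import Vale.Agent.P161.Tree

/-!
The finite-volume Ising model with product tilts: factorisation across an edge, consistency,
and the product formula for covariances.
-/

open Finset
open scoped Classical

namespace Vale.Agent.P161

variable {V : Type} {T : SimpleGraph V} {θ : ℝ}

noncomputable def sp (S : Finset V) (v : V) : ℝ := if v ∈ S then 1 else -1

theorem sp_sq (S : Finset V) (v : V) : sp S v * sp S v = 1 := by
  unfold sp; split_ifs <;> norm_num

theorem abs_sp (S : Finset V) (v : V) : |sp S v| = 1 := by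
  unfold sp; split_ifs <;> norm_num

noncomputable def wt (T : SimpleGraph V) (θ : ℝ) (D S : Finset V) : ℝ :=
  ∏ e ∈ D.sym2 with e ∈ T.edgeSet, (1 + θ * (e.map (sp S)).mul) / 2

theorem wt_pos (h0 : 0 ≤ θ) (h1 : θ < 1) (D S : Finset V) : 0 < wt T θ D S := by
  refine prod_pos fun e _ => ?_
  induction e with
  | h u v =>
    simp only [Sym2.map_mk, Sym2.mul_mk, sp]
    split_ifs <;> linarith

theorem wt_congr {D S S' : Finset V} (h : ∀ v ∈ D, sp S v = sp S' v) :
    wt T θ D S = wt T θ D S' := by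
  refine prod_congr rfl fun e he => ?_
  induction e with
  | h u v =>
    obtain ⟨h1, h2⟩ := mk_mem_sym2_iff.1 (mem_filter.1 he).1
    simp only [Sym2.map_mk, Sym2.mul_mk, h u h1, h v h2]

theorem wt_singleton (z : V) (S : Finset V) : wt T θ {z} S = 1 := by
  refine prod_eq_one fun e he => ?_
  obtain ⟨h1, h2⟩ := mem_filter.1 he
  rw [sym2_singleton, mem_singleton] at h1
  subst h1
  exact absurd h2 (T.loopless.irrefl z)

theorem wt_split (hT : T.IsTree) {p w : V} (h : T.Adj p w) {D : Finset V} (hp : p ∈ D)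
    (hw : w ∈ D) (S : Finset V) :
    wt T θ D S = wt T θ (D.filter fun x => ¬T.dist w x < T.dist p x) S *
      ((1 + θ * (sp S p * sp S w)) / 2) * wt T θ (D.filter fun x => T.dist w x < T.dist p x) S := by
  have d1 := SimpleGraph.dist_eq_one_iff_adj.2 h
  have p1 : ¬T.dist w p < T.dist p p := by rw [SimpleGraph.dist_self]; omega
  have w1 : T.dist w w < T.dist p w := by rw [SimpleGraph.dist_self]; omega
  have e : (D.sym2.filter fun e => e ∈ T.edgeSet) = insert s(p, w)
      (((D.filter fun x => ¬T.dist w x < T.dist p x).sym2.filter fun e => e ∈ T.edgeSet) ∪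
        ((D.filter fun x => T.dist w x < T.dist p x).sym2.filter fun e => e ∈ T.edgeSet)) := by
    ext e
    induction e with
    | h x y =>
      simp only [mem_filter, mem_insert, mem_union, mk_mem_sym2_iff, SimpleGraph.mem_edgeSet]
      constructor
      · rintro ⟨⟨hx, hy⟩, hxy⟩
        by_cases h1 : T.dist w x < T.dist p x <;> by_cases h2 : T.dist w y < T.dist p y
        · exact Or.inr (Or.inr ⟨⟨⟨hx, h1⟩, hy, h2⟩, hxy⟩)
        · obtain ⟨rfl, rfl⟩ := cross hT h hxy.symm h2 h1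
          exact Or.inl Sym2.eq_swap
        · obtain ⟨rfl, rfl⟩ := cross hT h hxy h1 h2
          exact Or.inl rfl
        · exact Or.inr (Or.inl ⟨⟨⟨hx, h1⟩, hy, h2⟩, hxy⟩)
      · rintro (h1 | h1 | h1)
        · rcases Sym2.eq_iff.1 h1 with ⟨rfl, rfl⟩ | ⟨rfl, rfl⟩
          exacts [⟨⟨hp, hw⟩, h⟩, ⟨⟨hw, hp⟩, h.symm⟩]
        · exact ⟨⟨h1.1.1.1, h1.1.2.1⟩, h1.2⟩
        · exact ⟨⟨h1.1.1.1, h1.1.2.1⟩, h1.2⟩
  unfold wt
  rw [e, prod_insert, prod_union]
  · simp only [Sym2.map_mk, Sym2.mul_mk]; ring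
  · rw [disjoint_left]
    intro e h1 h2
    induction e with
    | h x y =>
      exact (mem_filter.1 (mk_mem_sym2_iff.1 (mem_filter.1 h1).1).1).2
        (mem_filter.1 (mk_mem_sym2_iff.1 (mem_filter.1 h2).1).1).2
  · simp only [mem_union, mem_filter, mk_mem_sym2_iff]
    rintro (h1 | h1)
    exacts [h1.1.2.2 w1, p1 h1.1.1.2]

theorem sum_split (B : V → Prop) [DecidablePred B] (D : Finset V) (F : Finset V → ℝ) :
    ∑ S ∈ D.powerset, F S = ∑ S ∈ (D.filter fun x => ¬B x).powerset,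
      ∑ S' ∈ (D.filter B).powerset, F (S ∪ S') := by
  rw [← sum_product']
  refine sum_nbij' (fun S => (S.filter fun x => ¬B x, S.filter B)) (fun q => q.1 ∪ q.2)
    ?_ ?_ ?_ ?_ ?_
  · intro S hS
    exact mem_product.2 ⟨mem_powerset.2 (filter_subset_filter _ (mem_powerset.1 hS)),
      mem_powerset.2 (filter_subset_filter _ (mem_powerset.1 hS))⟩
  · intro q hq
    obtain ⟨h1, h2⟩ := mem_product.1 hq
    exact mem_powerset.2 (union_subset ((mem_powerset.1 h1).trans (filter_subset _ _))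
      ((mem_powerset.1 h2).trans (filter_subset _ _)))
  · intro S _
    rw [union_comm, filter_union_filter_not_eq]
  · intro q hq
    obtain ⟨h1, h2⟩ := mem_product.1 hq
    have a1 : ∀ x ∈ q.1, ¬B x := fun x hx => (mem_filter.1 (mem_powerset.1 h1 hx)).2
    have a2 : ∀ x ∈ q.2, B x := fun x hx => (mem_filter.1 (mem_powerset.1 h2 hx)).2
    refine Prod.ext ?_ ?_ <;> ext x <;> simp only [mem_filter, mem_union] <;> grind
  · intro S _
    rw [union_comm, filter_union_filter_not_eq]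

theorem consistent (hT : T.IsTree) {D D' : Finset V} (hD : Cvx T D) (hD' : Cvx T D') (h : D ⊆ D')
    (hne : D.Nonempty) {f : Finset V → ℝ}
    (hf : ∀ S S', (∀ v ∈ D, sp S v = sp S' v) → f S = f S') :
    ∑ S ∈ D'.powerset, wt T θ D' S * f S = ∑ S ∈ D.powerset, wt T θ D S * f S := by
  induction hn : D'.card using Nat.strong_induction_on generalizing D' with
  | _ n ih =>
    by_cases h2 : D = D'
    · rw [h2]
    obtain ⟨p, z, z1, z2, p1, hp, e1, c1⟩ := exists_leaf hT hD hD' h hne h2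
    have e2 : (D'.filter fun x => ¬T.dist z x < T.dist p x) = D'.erase z := by
      ext x
      have := Finset.ext_iff.1 e1 x
      simp only [mem_filter, mem_singleton, mem_erase] at this ⊢
      tauto
    rw [← ih _ (hn ▸ card_erase_lt_of_mem z1) c1
      (fun x hx => mem_erase.2 ⟨fun h3 => z2 (h3 ▸ hx), h hx⟩) rfl]
    conv_lhs => rw [← insert_erase z1, sum_powerset_insert (notMem_erase _ _), insert_erase z1]
    rw [← sum_add_distrib]
    refine sum_congr rfl fun S hS => ?_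
    have zS : z ∉ S := fun h3 => notMem_erase _ _ (mem_powerset.1 hS h3)
    have k : ∀ v ≠ z, sp (insert z S) v = sp S v := fun v hv => by simp [sp, hv]
    rw [wt_split hT hp p1 z1, wt_split hT hp p1 z1 (insert z S), e1, e2, wt_singleton,
      wt_singleton, wt_congr (S := insert z S) (S' := S) fun v hv => k v (mem_erase.1 hv).1,
      hf (insert z S) S fun v hv => k v fun h3 => z2 (h3 ▸ hv), k p hp.ne]
    simp only [sp, zS, mem_insert_self, if_true, if_false]
    ring

theorem total (hT : T.IsTree) {D : Finset V} (hD : Cvx T D) (hne : D.Nonempty) :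
    ∑ S ∈ D.powerset, wt T θ D S = 2 := by
  obtain ⟨o, ho⟩ := hne
  have := consistent (θ := θ) hT (cvx_singleton hT o) hD (singleton_subset_iff.2 ho)
    (singleton_nonempty o) (f := fun _ => 1) fun _ _ _ => rfl
  simpa [wt_singleton] using this

/-- Product tilts. -/
noncomputable def tl (s : Finset (V × ℕ)) (x : V × ℕ → ℝ) (S : Finset V) : ℝ :=
  ∏ j ∈ s, (1 + x j * sp S j.1)

theorem tl_pos {s : Finset (V × ℕ)} {x : V × ℕ → ℝ} (hx : ∀ j, |x j| ≤ 1 / 8) (S : Finset V) :
    0 < tl s x S := by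
  refine prod_pos fun j _ => ?_
  have := abs_le.1 (hx j)
  unfold sp
  split_ifs <;> linarith

noncomputable def Zs (T : SimpleGraph V) (θ : ℝ) (D : Finset V) (L f : Finset V → ℝ) : ℝ :=
  ∑ S ∈ D.powerset, wt T θ D S * (L S * f S)

noncomputable def mean (T : SimpleGraph V) (θ : ℝ) (D : Finset V) (L f : Finset V → ℝ) : ℝ :=
  Zs T θ D L f / Zs T θ D L fun _ => 1

noncomputable def mag (T : SimpleGraph V) (θ : ℝ) (D : Finset V) (L : Finset V → ℝ) (v : V) : ℝ :=
  mean T θ D L fun S => sp S v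

noncomputable def cov (T : SimpleGraph V) (θ : ℝ) (D : Finset V) (L : Finset V → ℝ) (v u : V) :
    ℝ :=
  mean T θ D L (fun S => sp S v * sp S u) - mag T θ D L v * mag T θ D L u

theorem Zs_pos (h0 : 0 ≤ θ) (h1 : θ < 1) (D : Finset V) {L : Finset V → ℝ} (hL : ∀ S, 0 < L S) :
    0 < Zs T θ D L fun _ => 1 :=
  sum_pos (fun S _ => mul_pos (wt_pos h0 h1 D S) (by simpa using hL S)) ⟨∅, by simp⟩

theorem abs_Zs_le (h0 : 0 ≤ θ) (h1 : θ < 1) (D : Finset V) {L : Finset V → ℝ} (hL : ∀ S, 0 < L S)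
    {f : Finset V → ℝ} (hf : ∀ S, |f S| ≤ 1) : |Zs T θ D L f| ≤ Zs T θ D L fun _ => 1 := by
  refine (abs_sum_le_sum_abs _ _).trans (sum_le_sum fun S _ => ?_)
  rw [abs_mul, abs_mul, abs_of_pos (wt_pos h0 h1 D S), abs_of_pos (hL S)]
  exact mul_le_mul_of_nonneg_left (mul_le_mul_of_nonneg_left (hf S) (hL S).le)
    (wt_pos h0 h1 D S).le

theorem abs_mean_le (h0 : 0 ≤ θ) (h1 : θ < 1) (D : Finset V) {L : Finset V → ℝ}
    (hL : ∀ S, 0 < L S) {f : Finset V → ℝ} (hf : ∀ S, |f S| ≤ 1) : |mean T θ D L f| ≤ 1 := by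
  rw [mean, abs_div, abs_of_pos (Zs_pos h0 h1 D hL), div_le_one (Zs_pos h0 h1 D hL)]
  exact abs_Zs_le h0 h1 D hL hf

theorem abs_mag_le (h0 : 0 ≤ θ) (h1 : θ < 1) (D : Finset V) {L : Finset V → ℝ}
    (hL : ∀ S, 0 < L S) (v : V) : |mag T θ D L v| ≤ 1 :=
  abs_mean_le h0 h1 D hL fun S => (abs_sp S v).le

theorem cov_self (h0 : 0 ≤ θ) (h1 : θ < 1) (D : Finset V) {L : Finset V → ℝ}
    (hL : ∀ S, 0 < L S) (v : V) : cov T θ D L v v = 1 - mag T θ D L v ^ 2 := by
  simp only [cov, sp_sq, mean, div_self (Zs_pos h0 h1 D hL).ne', sq]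

theorem Zs_split (hT : T.IsTree) {p w : V} (h : T.Adj p w) {D : Finset V} (hp : p ∈ D)
    (hw : w ∈ D) (s : Finset (V × ℕ)) (x : V × ℕ → ℝ) {F f g : Finset V → ℝ}
    (hF : ∀ S S', (∀ v, ¬T.dist w v < T.dist p v → sp (S ∪ S') v = sp S v) →
      (∀ v, T.dist w v < T.dist p v → sp (S ∪ S') v = sp S' v) → F (S ∪ S') = f S * g S') :
    Zs T θ D (tl s x) F =
      (Zs T θ (D.filter fun v => ¬T.dist w v < T.dist p v)
          (tl (s.filter fun j => ¬T.dist w j.1 < T.dist p j.1) x) f *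
        Zs T θ (D.filter fun v => T.dist w v < T.dist p v)
          (tl (s.filter fun j => T.dist w j.1 < T.dist p j.1) x) g +
      θ * (Zs T θ (D.filter fun v => ¬T.dist w v < T.dist p v)
          (tl (s.filter fun j => ¬T.dist w j.1 < T.dist p j.1) x) (fun S => f S * sp S p) *
        Zs T θ (D.filter fun v => T.dist w v < T.dist p v)
          (tl (s.filter fun j => T.dist w j.1 < T.dist p j.1) x) fun S => g S * sp S w)) / 2 := by
  have d1 := SimpleGraph.dist_eq_one_iff_adj.2 h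
  have p1 : ¬T.dist w p < T.dist p p := by rw [SimpleGraph.dist_self]; omega
  have w1 : T.dist w w < T.dist p w := by rw [SimpleGraph.dist_self]; omega
  unfold Zs
  rw [sum_split (fun v => T.dist w v < T.dist p v), sum_mul_sum, sum_mul_sum, mul_sum,
    ← sum_add_distrib, sum_div]
  refine sum_congr rfl fun S hS => ?_
  rw [mul_sum, ← sum_add_distrib, sum_div]
  refine sum_congr rfl fun S' hS' => ?_
  have a1 : ∀ v, ¬T.dist w v < T.dist p v → sp (S ∪ S') v = sp S v := fun v hv => by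
    have : v ∉ S' := fun h3 => hv (mem_filter.1 (mem_powerset.1 hS' h3)).2
    simp [sp, this]
  have a2 : ∀ v, T.dist w v < T.dist p v → sp (S ∪ S') v = sp S' v := fun v hv => by
    have : v ∉ S := fun h3 => (mem_filter.1 (mem_powerset.1 hS h3)).2 hv
    simp [sp, this]
  have a3 : tl s x (S ∪ S') = tl (s.filter fun j => ¬T.dist w j.1 < T.dist p j.1) x S *
      tl (s.filter fun j => T.dist w j.1 < T.dist p j.1) x S' := by
    unfold tl
    rw [← prod_filter_not_mul_prod_filter s fun j => T.dist w j.1 < T.dist p j.1]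
    congr 1 <;> refine prod_congr rfl fun j hj => ?_
    exacts [by rw [a1 _ (mem_filter.1 hj).2], by rw [a2 _ (mem_filter.1 hj).2]]
  rw [wt_split hT h hp hw, hF S S' a1 a2, a3, a1 p p1, a2 w w1,
    wt_congr (S := S ∪ S') (S' := S) fun v hv => a1 v (mem_filter.1 hv).2,
    wt_congr (S := S ∪ S') (S' := S') fun v hv => a2 v (mem_filter.1 hv).2]
  ring

theorem edge (hT : T.IsTree) (h0 : 0 ≤ θ) (h1 : θ < 1) {p w : V} (h : T.Adj p w) {D : Finset V}
    (hp : p ∈ D) (hw : w ∈ D) (s : Finset (V × ℕ)) {x : V × ℕ → ℝ} (hx : ∀ j, |x j| ≤ 1 / 8) :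
    ∃ a m : ℝ, |a| ≤ 1 ∧ |m| ≤ 1 ∧ mag T θ D (tl s x) p * (1 + θ * a * m) = a + θ * m ∧
      mag T θ D (tl s x) w * (1 + θ * a * m) = m + θ * a ∧
      ∀ v, ¬T.dist w v < T.dist p v → cov T θ D (tl s x) v w =
        θ * (1 - m ^ 2) / (1 - θ ^ 2 * m ^ 2) * cov T θ D (tl s x) v p := by
  have d1 := SimpleGraph.dist_eq_one_iff_adj.2 h
  have p1 : ¬T.dist w p < T.dist p p := by rw [SimpleGraph.dist_self]; omega
  have w1 : T.dist w w < T.dist p w := by rw [SimpleGraph.dist_self]; omega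
  have k := fun F f g hF => Zs_split (θ := θ) hT h hp hw s x (F := F) (f := f) (g := g) hF
  have e0 := k (fun _ => 1) (fun _ => 1) (fun _ => 1) fun _ _ _ _ => by simp
  have ep := k (fun S => sp S p) (fun S => sp S p) (fun _ => 1) fun _ _ a _ => by simp [a p p1]
  have ew := k (fun S => sp S w) (fun _ => 1) (fun S => sp S w) fun _ _ _ a => by simp [a w w1]
  have ev := fun v (hv : ¬T.dist w v < T.dist p v) =>
    k (fun S => sp S v) (fun S => sp S v) (fun _ => 1) fun _ _ a _ => by simp [a v hv]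
  have evp := fun v (hv : ¬T.dist w v < T.dist p v) =>
    k (fun S => sp S v * sp S p) (fun S => sp S v * sp S p) (fun _ => 1)
      fun _ _ a _ => by simp [a v hv, a p p1]
  have evw := fun v (hv : ¬T.dist w v < T.dist p v) =>
    k (fun S => sp S v * sp S w) (fun S => sp S v) (fun S => sp S w)
      fun _ _ a b => by simp [a v hv, b w w1]
  simp only [one_mul, sp_sq, mul_assoc, mul_one] at e0 ep ew ev evp evw
  have A0 := Zs_pos (T := T) h0 h1 (D.filter fun v => ¬T.dist w v < T.dist p v)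
    (tl_pos (s := s.filter fun j => ¬T.dist w j.1 < T.dist p j.1) hx)
  have B0 := Zs_pos (T := T) h0 h1 (D.filter fun v => T.dist w v < T.dist p v)
    (tl_pos (s := s.filter fun j => T.dist w j.1 < T.dist p j.1) hx)
  have A1 := abs_mag_le (T := T) h0 h1 (D.filter fun v => ¬T.dist w v < T.dist p v)
    (tl_pos (s := s.filter fun j => ¬T.dist w j.1 < T.dist p j.1) hx) p
  have B1 := abs_mag_le (T := T) h0 h1 (D.filter fun v => T.dist w v < T.dist p v)
    (tl_pos (s := s.filter fun j => T.dist w j.1 < T.dist p j.1) hx) w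
  simp only [cov, mag, mean] at *
  generalize Zs T θ (D.filter fun v => ¬T.dist w v < T.dist p v)
    (tl (s.filter fun j => ¬T.dist w j.1 < T.dist p j.1) x) = A at *
  generalize Zs T θ (D.filter fun v => T.dist w v < T.dist p v)
    (tl (s.filter fun j => T.dist w j.1 < T.dist p j.1) x) = B at *
  obtain ⟨a, ha⟩ : ∃ a, a = (A fun S => sp S p) / A fun _ => 1 := ⟨_, rfl⟩
  obtain ⟨m, hm⟩ : ∃ m, m = (B fun S => sp S w) / B fun _ => 1 := ⟨_, rfl⟩
  rw [← ha] at A1
  rw [← hm] at B1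
  rw [eq_div_iff A0.ne'] at ha
  rw [eq_div_iff B0.ne'] at hm
  obtain ⟨a1, a2⟩ := abs_le.1 A1
  obtain ⟨m1, m2⟩ := abs_le.1 B1
  have am : -1 ≤ a * m := by nlinarith
  have z0 : 0 < 1 + θ * a * m := by nlinarith
  have z1 : 0 < 1 - θ ^ 2 * m ^ 2 := by
    have : m ^ 2 ≤ 1 := by nlinarith
    nlinarith [sq_nonneg θ, sq_nonneg m]
  have e1 : Zs T θ D (tl s x) (fun _ => 1) =
      (A fun _ => 1) * (B fun _ => 1) * (1 + θ * a * m) / 2 := by rw [e0, ← ha, ← hm]; ring
  refine ⟨a, m, A1, B1, ?_, ?_, fun v hv => ?_⟩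
  · rw [ep, e1, ← ha, ← hm]
    generalize 1 + θ * a * m = z at z0
    field_simp
  · rw [ew, e1, ← ha, ← hm]
    generalize 1 + θ * a * m = z at z0
    field_simp
  · rw [evw v hv, evp v hv, ev v hv, ep, ew, e1, ← ha, ← hm]
    obtain ⟨z, hz⟩ : ∃ z, z = 1 + θ * a * m := ⟨_, rfl⟩
    obtain ⟨y, hy⟩ : ∃ y, y = 1 - θ ^ 2 * m ^ 2 := ⟨_, rfl⟩
    rw [← hz] at z0 ⊢
    rw [← hy] at z1 ⊢
    field_simp
    rw [hz, hy]
    ring

end Vale.Agent.P161
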