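import Vale.Agent.P161.Proc

/-!
The law of the finite-volume revelation process is the planted law.
-/

open MeasureTheory ProbabilityTheory Filter Topology Finset Function
open scoped unitInterval ENNReal Classical

namespace Vale.Agent.P161

open Vale.Agent.P143 (Q Q_spec measurable_Q lik dens_pos resample lintegral_tilt)

section

variable {K J τ β : Type}

theorem sequential_wt [DecidableEq J] [LinearOrder β] {S : Finset J} {key : J → β} (hkey : Set.InjOn key S)
    {κ : J → K} (hκ : Set.InjOn κ S) {T : Finset τ} (hT : T.Nonempty) {π : τ → ℝ} (hπ : ∀ t, 0 < π t)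
    (hπ1 : ∑ t ∈ T, π t = 1) {sg : τ → J → ℝ}
    (hsg : ∀ t j, |sg t j| ≤ 1) {W m : (K → I) → J → ℝ} (mW : ∀ j, Measurable fun ω => W ω j)
    (hm1 : ∀ ω j, |m ω j| ≤ 1) (hfix : ∀ ω, ∀ j ∈ S, W ω j = Q (m ω j) (ω (κ j)))
    (hpost : ∀ ω, ∀ j ∈ S, m ω j * ∑ t ∈ T, π t * lik (sg t) (S.filter fun i => key i < key j) (W ω) =
      ∑ t ∈ T, sg t j * (π t * lik (sg t) (S.filter fun i => key i < key j) (W ω)))
    (hc : ∀ ω u, ∀ j ∈ S, ∀ i ∈ S, key i < key j → W (update ω (κ j) u) i = W ω i)
    {g : (J → ℝ) → ℝ≥0∞} (hg : Measurable g) :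
    ∫⁻ ω, g (fun j => if j ∈ S then W ω j else 0) ∂P143.iid K =
      ∑ t ∈ T, ENNReal.ofReal (π t) *
        ∫⁻ ω, g (fun j => if j ∈ S then Q (sg t j) (ω (κ j)) else 0) ∂P143.iid K := by
  have W1 : ∀ ω, ∀ j ∈ S, |W ω j| ≤ 1 := fun ω j hj => by
    rw [hfix ω j hj]; exact (Q_spec (hm1 ω j) (ω _).2).2
  have L0 : ∀ t ω, ∀ s ⊆ S, 0 < π t * lik (sg t) s (W ω) := fun t ω s hs =>
    mul_pos (hπ t) (prod_pos fun j hj => dens_pos (hsg t j) (W1 ω j (hs hj)))
  have N0 : ∀ ω, ∀ s ⊆ S, 0 < ∑ t ∈ T, π t * lik (sg t) s (W ω) := fun ω s hs =>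
    sum_pos (fun t _ => L0 t ω s hs) hT
  let hyb : τ → Finset J → (K → I) → J → ℝ := fun t s ω j =>
    if j ∈ s then W ω j else if j ∈ S then Q (sg t j) (ω (κ j)) else 0
  let F : τ → Finset J → (K → I) → ℝ≥0∞ := fun t s ω =>
    ENNReal.ofReal (π t * lik (sg t) s (W ω) / ∑ t ∈ T, π t * lik (sg t) s (W ω)) * g (hyb t s ω)
  have mF : ∀ t s, Measurable (F t s) := fun t s => by
    refine Measurable.mul ?_ (hg.comp (measurable_pi_lambda _ fun j => ?_))
    · unfold lik; fun_prop
    · simp only [hyb]; split_ifs <;> fun_prop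
  have main : ∀ t s, s ⊆ S → (∀ j ∈ s, ∀ i ∈ S, key i < key j → i ∈ s) →
      ∫⁻ ω, F t s ω ∂P143.iid K = ∫⁻ ω, F t ∅ ω ∂P143.iid K := by
    intro t s
    induction s using Finset.induction_on_max_value key with
    | empty => exact fun _ _ => rfl
    | insert a s ha hmax ih =>
      intro h1 h2
      have aS : a ∈ S := h1 (mem_insert_self _ _)
      have sS : s ⊆ S := (subset_insert _ _).trans h1
      have lt : ∀ i ∈ s, key i < key a := fun i hi => lt_of_le_of_ne (hmax i hi)
        fun h => ha (hkey (sS hi) aS h ▸ hi)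
      have es : S.filter (fun i => key i < key a) = s := by
        ext i
        rw [mem_filter]
        refine ⟨fun h => (mem_insert.1 (h2 a (mem_insert_self _ _) i h.1 h.2)).resolve_left ?_,
          fun h => ⟨sS h, lt i h⟩⟩
        rintro rfl
        exact lt_irrefl _ h.2
      rw [← ih sS fun j hj i hi h => es ▸ mem_filter.2 ⟨hi, h.trans (lt j hj)⟩,
        resample (κ a) (mF t _), resample (κ a) (mF t s)]
      refine lintegral_congr fun ω => ?_
      have c1 : ∀ u t, lik (sg t) s (W (update ω (κ a) u)) = lik (sg t) s (W ω) := fun u t =>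
        prod_congr rfl fun i hi => by rw [hc ω u a aS i (sS hi) (lt i hi)]
      have p1 := hpost ω a aS
      rw [es] at p1
      have c2 : ∀ u, W (update ω (κ a) u) a = Q (m ω a) u := fun u => by
        have p2 := hpost (update ω (κ a) u) a aS
        simp only [es, c1] at p2
        rw [hfix _ a aS, update_self, mul_right_cancel₀ (N0 ω s sS).ne' (p2.trans p1.symm)]
      have c3 : ∀ u, ∀ j ≠ a, hyb t s (update ω (κ a) u) j = hyb t s ω j := fun u j hj => by
        simp only [hyb]
        split_ifs with h3 h4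
        · exact hc ω u a aS j (sS h3) (lt j h3)
        · rw [update_of_ne fun h => hj (hκ h4 aS h)]
        · rfl
      have c4 : ∀ u, hyb t s (update ω (κ a) u) = update (hyb t s ω) a (Q (sg t a) u) :=
        fun u => by
          ext j
          by_cases hj : j = a
          · subst hj; simp [hyb, ha, aS]
          · rw [update_of_ne hj, c3 u j hj]
      have c5 : ∀ u, hyb t (insert a s) (update ω (κ a) u) =
          update (hyb t s ω) a (Q (m ω a) u) := fun u => by
        ext j
        by_cases hj : j = a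
        · subst hj; simp [hyb, c2]
        · rw [update_of_ne hj, ← c3 u j hj]
          simp [hyb, hj]
      have c6 : ∀ u t, π t * lik (sg t) (insert a s) (W (update ω (κ a) u)) =
          (1 + sg t a * Q (m ω a) u / 8) * (π t * lik (sg t) s (W ω)) := fun u t => by
        rw [← c1 u, ← c2 u, mul_left_comm]; exact congrArg _ (prod_insert ha)
      have c7 : ∀ u, ∑ t ∈ T, π t * lik (sg t) (insert a s) (W (update ω (κ a) u)) =
          (1 + m ω a * Q (m ω a) u / 8) * ∑ t ∈ T, π t * lik (sg t) s (W ω) := fun u => by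
        have : ∀ t, (1 + sg t a * Q (m ω a) u / 8) * (π t * lik (sg t) s (W ω)) =
            π t * lik (sg t) s (W ω) +
            Q (m ω a) u / 8 * (sg t a * (π t * lik (sg t) s (W ω))) := fun t => by ring
        simp only [c6, this, sum_add_distrib, ← mul_sum, ← p1]
        ring
      have mg : Measurable fun w => g (update (hyb t s ω) a w) := hg.comp (measurable_update _)
      simp only [F, c7, c1, c4, c5, c6 _ t]
      rw [lintegral_const_mul' _ _ ENNReal.ofReal_ne_top,
        ← lintegral_tilt (hm1 ω a) (hsg t a) mg, ← lintegral_const_mul' _ _ ENNReal.ofReal_ne_top]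
      refine lintegral_congr fun u => ?_
      rw [← mul_assoc (ENNReal.ofReal _),
        ← ENNReal.ofReal_mul (div_pos (L0 t ω s sS) (N0 ω s sS)).le,
        mul_div_mul_comm, mul_comm (_ / _)]
  have e0 : ∀ t ∈ T, ENNReal.ofReal (π t) *
      ∫⁻ ω, g (fun j => if j ∈ S then Q (sg t j) (ω (κ j)) else 0) ∂P143.iid K =
      ∫⁻ ω, F t S ω ∂P143.iid K := fun t _ => by
    rw [main t S Subset.rfl fun _ _ _ h _ => h, ← lintegral_const_mul' _ _ ENNReal.ofReal_ne_top]
    refine lintegral_congr fun ω => ?_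
    simp only [F, hyb, lik, prod_empty, mul_one, notMem_empty, if_false, hπ1, div_one]
  rw [sum_congr rfl e0, ← lintegral_finset_sum _ fun t _ => mF t S]
  refine lintegral_congr fun ω => ?_
  have : ∀ t, hyb t S ω = fun j => if j ∈ S then W ω j else 0 := fun t => by
    ext j
    simp only [hyb]
    split_ifs <;> rfl
  simp only [F, this, ← sum_mul]
  rw [← ENNReal.ofReal_sum_of_nonneg fun t _ =>
    (div_pos (L0 t ω S Subset.rfl) (N0 ω S Subset.rfl)).le, ← sum_div,
    div_self (N0 ω S Subset.rfl).ne']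
  simp

end

variable {V K : Type} {T : SimpleGraph V} {θ ε : ℝ}

theorem key_inj {τ : V → I} (hτ : Injective τ) : Injective (key τ) := fun i j h => by
  simp only [key, toLex_inj, Prod.mk.injEq] at h
  exact Prod.ext (hτ h.2) h.1

theorem finite_law (hT : T.IsTree) (h0 : 0 ≤ θ) (h1 : θ < 1) (e0 : 0 ≤ ε) (e1 : ε ≤ 1)
    {D : Finset V} (hD : Cvx T D) (hne : D.Nonempty) {τ : V → I} (hτ : Injective τ)
    {κ : V × ℕ → K} (hκ : Injective κ) (N : ℕ) {g : (V × ℕ → ℝ) → ℝ≥0∞} (hg : Measurable g) :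
    ∫⁻ ω, g (fun j => if j ∈ D ×ˢ range N then Wf T θ ε D τ (fun i => ω (κ i)) j else 0)
        ∂P143.iid K =
      ∑ S ∈ D.powerset, ENNReal.ofReal (wt T θ D S / 2) * ∫⁻ ω, g (fun j =>
        if j ∈ D ×ˢ range N then Q (ε * sp S j.1) (ω (κ j)) else 0) ∂P143.iid K := by
  have hx : ∀ (ω : K → I) i, |ε * Wf T θ ε D τ (fun i => ω (κ i)) i / 8| ≤ 1 / 8 := fun ω i =>
    x_bound e0 e1 (Wf_abs h0 h1 e0 e1 i)
  refine sequential_wt (S := D ×ˢ range N) (key := key τ) (key_inj hτ).injOn hκ.injOn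
    (T := D.powerset) ⟨∅, empty_mem_powerset D⟩
    (π := fun S => wt T θ D S / 2) (fun S => half_pos (wt_pos h0 h1 D S))
    (by rw [← sum_div, total hT hD hne]; norm_num) (sg := fun S j => ε * sp S j.1)
    (fun S j => em_bound e0 e1 (abs_sp S _).le)
    (W := fun ω => Wf T θ ε D τ fun i => ω (κ i))
    (m := fun ω j => ε * mag T θ D (tl (pre D τ j)
      fun i => ε * Wf T θ ε D τ (fun i => ω (κ i)) i / 8) j.1)
    (measurable_Wf (τ := fun _ => τ) (fun _ => measurable_const) fun j => measurable_pi_apply _)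
    (fun ω j => em_bound e0 e1 (abs_mag_le h0 h1 D (tl_pos (hx ω)) _))
    (fun ω j hj => by rw [Wf_eq, step, if_pos (mem_product.1 hj).1]) (fun ω j hj => ?_)
    (fun ω u j _ i _ h => Wf_causal (fun i hi => update_of_ne (fun h => ?_) _ _) h) hg
  · have e : ∀ [DecidablePred fun i => key τ i < key τ j],
        (D ×ˢ range N).filter (fun i => key τ i < key τ j) = pre D τ j := by
      intro _
      ext i
      rw [mem_pre, mem_filter, mem_product, mem_range]
      exact ⟨fun h => ⟨h.1.1, h.2⟩, fun h => ⟨⟨h.1, (key_le h.2).trans_lt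
        (mem_range.1 (mem_product.1 hj).2)⟩, h.2⟩⟩
    have e2 : ∀ S, lik (fun j => ε * sp S j.1) (pre D τ j) (Wf T θ ε D τ fun i => ω (κ i)) =
        tl (pre D τ j) (fun i => ε * Wf T θ ε D τ (fun i => ω (κ i)) i / 8) S := fun S =>
      prod_congr rfl fun i _ => by ring
    have z := Zs_pos (T := T) h0 h1 D (tl_pos (s := pre D τ j) (hx ω))
    simp only [e, e2, mag, mean]
    generalize tl (pre D τ j) (fun i => ε * Wf T θ ε D τ (fun i => ω (κ i)) i / 8) = L at *
    have e3 : ∑ S ∈ D.powerset, wt T θ D S / 2 * L S = (Zs T θ D L fun _ => 1) / 2 := by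
      rw [Zs, sum_div]; exact sum_congr rfl fun S _ => by ring
    have e4 : ∑ S ∈ D.powerset, ε * sp S j.1 * (wt T θ D S / 2 * L S) =
        ε * (Zs T θ D L fun S => sp S j.1) / 2 := by
      rw [Zs, mul_sum, sum_div]; exact sum_congr rfl fun S _ => by ring
    rw [e3, e4]
    field_simp
  · rw [hκ h] at hi
    exact lt_irrefl _ hi

end Vale.Agent.P161
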