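import Vale.Agent.P161.Ising

/-!
Covariances decay along paths and are Lipschitz functions of the magnetisations on the path.
-/

open Finset
open scoped Classical

namespace Vale.Agent.P161

variable {V : Type} {T : SimpleGraph V} {θ : ℝ}

theorem psi_bound (h0 : 0 ≤ θ) (h1 : θ ^ 2 ≤ 1 / 2) {m : ℝ} (hm : |m| ≤ 1) :
    0 ≤ θ * (1 - m ^ 2) / (1 - θ ^ 2 * m ^ 2) ∧ θ * (1 - m ^ 2) / (1 - θ ^ 2 * m ^ 2) ≤ θ := by
  have m2 : m ^ 2 ≤ 1 := by rw [← sq_abs]; nlinarith [abs_nonneg m]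
  have z1 : 0 < 1 - θ ^ 2 * m ^ 2 := by nlinarith [sq_nonneg θ, sq_nonneg m]
  refine ⟨div_nonneg (mul_nonneg h0 (by linarith)) z1.le, ?_⟩
  rw [div_le_iff₀ z1]
  exact mul_le_mul_of_nonneg_left (by nlinarith [sq_nonneg m]) h0

theorem y_bound (h1 : θ ^ 2 ≤ 1 / 2) {a : ℝ} (ha : |a| ≤ 1) :
    a ^ 2 ≤ 1 ∧ 1 / 2 ≤ 1 - θ ^ 2 * a ^ 2 ∧ 1 - θ ^ 2 * a ^ 2 ≤ 1 ∧
      1 - a ^ 2 ≤ 1 - θ ^ 2 * a ^ 2 := by
  have : a ^ 2 ≤ 1 := by rw [← sq_abs]; nlinarith [abs_nonneg a]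
  refine ⟨this, ?_, ?_, ?_⟩ <;> nlinarith [sq_nonneg θ, sq_nonneg a]

theorem z_bound (h0 : 0 ≤ θ) (h1 : θ ^ 2 ≤ 1 / 2) {a m : ℝ} (ha : |a| ≤ 1) (hm : |m| ≤ 1) :
    0 < 1 + θ * a * m ∧ 1 + θ * a * m ≤ 2 := by
  have t1 : θ ≤ 3 / 4 := by nlinarith
  have : |a * m| ≤ 1 := by rw [abs_mul]; exact mul_le_one₀ ha (abs_nonneg _) hm
  obtain ⟨b1, b2⟩ := abs_le.1 this
  constructor <;> nlinarith

theorem K_bound {t p q p' q' : ℝ} (ht : 0 ≤ t) (h1 : t ≤ 1 / 2) (hp : 1 / 2 ≤ p) (hq : 1 / 2 ≤ q)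
    (hp' : p' ≤ p) (hq' : q' ≤ q) (hq0 : 0 ≤ q') : 1 / 8 ≤ p * q - t * p' * q' := by
  have b1 : p' * q' ≤ p * q := mul_le_mul hp' hq' hq0 (by linarith)
  have b2 : 1 / 4 ≤ p * q := by nlinarith
  nlinarith

theorem m_lip (h0 : 0 ≤ θ) (h1 : θ ^ 2 ≤ 1 / 2) {a m a' m' P W P' W' : ℝ} (ha : |a| ≤ 1)
    (hm : |m| ≤ 1) (ha' : |a'| ≤ 1) (hm' : |m'| ≤ 1) (e1 : P * (1 + θ * a * m) = a + θ * m)
    (e2 : W * (1 + θ * a * m) = m + θ * a) (e3 : P' * (1 + θ * a' * m') = a' + θ * m')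
    (e4 : W' * (1 + θ * a' * m') = m' + θ * a') : |m - m'| ≤ 32 * (|P - P'| + |W - W'|) := by
  have t1 : θ ≤ 1 := by nlinarith
  obtain ⟨z1, z2⟩ := z_bound h0 h1 ha hm
  obtain ⟨z3, z4⟩ := z_bound h0 h1 ha hm'
  obtain ⟨z5, -⟩ := z_bound h0 h1 ha' hm'
  obtain ⟨a1, a2, a3, a4⟩ := y_bound h1 ha
  obtain ⟨m1, m2, m3, m4⟩ := y_bound h1 hm'
  have id1 : ((1 - θ ^ 2 * m' ^ 2) * (W - W') - θ * (1 - m' ^ 2) * (P - P')) *
      ((1 + θ * a * m) * (1 + θ * a * m')) = (m - m') *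
        ((1 - θ ^ 2 * a ^ 2) * (1 - θ ^ 2 * m' ^ 2) - θ ^ 2 * (1 - a ^ 2) * (1 - m' ^ 2)) := by
    refine mul_right_cancel₀ z5.ne' ?_
    linear_combination (1 - θ ^ 2 * m' ^ 2) * (1 + θ * a * m') * (1 + θ * a' * m') * e2 -
      (1 - θ ^ 2 * m' ^ 2) * (1 + θ * a * m') * (1 + θ * a * m) * e4 -
      θ * (1 - m' ^ 2) * (1 + θ * a * m') * (1 + θ * a' * m') * e1 +
      θ * (1 - m' ^ 2) * (1 + θ * a * m') * (1 + θ * a * m) * e3
  have K := K_bound (sq_nonneg θ) h1 a2 m2 a4 m4 (by linarith)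
  have c1 := congrArg abs id1
  rw [abs_mul, abs_mul (m - m'), abs_of_pos (mul_pos z1 z3),
    abs_of_nonneg (a := _ * _ - θ ^ 2 * _ * _) (by linarith)] at c1
  have c2 : |(1 - θ ^ 2 * m' ^ 2) * (W - W') - θ * (1 - m' ^ 2) * (P - P')| ≤
      |P - P'| + |W - W'| := by
    refine (abs_sub _ _).trans ?_
    rw [abs_mul, abs_mul, abs_of_nonneg (a := 1 - _) (by linarith),
      abs_of_nonneg (a := θ * _) (mul_nonneg h0 (by linarith))]
    have d1 : (1 - θ ^ 2 * m' ^ 2) * |W - W'| ≤ |W - W'| :=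
      mul_le_of_le_one_left (abs_nonneg _) m3
    have d2 : θ * (1 - m' ^ 2) * |P - P'| ≤ |P - P'| :=
      mul_le_of_le_one_left (abs_nonneg _) (mul_le_one₀ t1 (by linarith)
        (by linarith [sq_nonneg m']))
    linarith
  have c3 : (1 + θ * a * m) * (1 + θ * a * m') ≤ 2 * 2 := mul_le_mul z2 z4 z3.le zero_le_two
  have c4 := mul_le_mul c2 c3 (mul_pos z1 z3).le (by positivity)
  have c5 := mul_le_mul_of_nonneg_left K (abs_nonneg (m - m'))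
  linarith

theorem psi_lip (h0 : 0 ≤ θ) (h1 : θ ^ 2 ≤ 1 / 2) {m m' : ℝ} (hm : |m| ≤ 1) (hm' : |m'| ≤ 1) :
    |θ * (1 - m ^ 2) / (1 - θ ^ 2 * m ^ 2) - θ * (1 - m' ^ 2) / (1 - θ ^ 2 * m' ^ 2)| ≤
      8 * θ * |m - m'| := by
  obtain ⟨-, y3, -, -⟩ := y_bound h1 hm
  obtain ⟨-, y2, -, -⟩ := y_bound h1 hm'
  have id2 : θ * (1 - m ^ 2) / (1 - θ ^ 2 * m ^ 2) - θ * (1 - m' ^ 2) / (1 - θ ^ 2 * m' ^ 2) =
      θ * (m' - m) * ((1 - θ ^ 2) * (m' + m) / ((1 - θ ^ 2 * m ^ 2) * (1 - θ ^ 2 * m' ^ 2))) := by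
    have h2 : 1 - θ ^ 2 * m ^ 2 ≠ 0 := by linarith
    have h3 : 1 - θ ^ 2 * m' ^ 2 ≠ 0 := by linarith
    rw [div_sub_div _ _ h2 h3, ← mul_div_assoc]
    congr 1
    ring
  have c5 : |(1 - θ ^ 2) * (m' + m) / ((1 - θ ^ 2 * m ^ 2) * (1 - θ ^ 2 * m' ^ 2))| ≤ 8 := by
    have b2 : 1 / 2 * (1 / 2) ≤ (1 - θ ^ 2 * m ^ 2) * (1 - θ ^ 2 * m' ^ 2) :=
      mul_le_mul y3 y2 (by norm_num) (by linarith)
    rw [abs_div, abs_of_pos (a := _ * (1 - θ ^ 2 * m' ^ 2)) (by linarith),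
      div_le_iff₀ (by linarith), abs_mul, abs_of_nonneg (a := 1 - θ ^ 2) (by linarith)]
    have b3 := abs_add_le m' m
    have b4 : (1 - θ ^ 2) * |m' + m| ≤ |m' + m| :=
      mul_le_of_le_one_left (abs_nonneg _) (by linarith [sq_nonneg θ])
    linarith
  rw [id2, abs_mul, abs_mul, abs_of_nonneg h0, abs_sub_comm m']
  calc θ * |m - m'| * _ ≤ θ * |m - m'| * 8 := by gcongr
    _ = _ := by ring

theorem cov_bound (hT : T.IsTree) (h0 : 0 ≤ θ) (h1 : θ ^ 2 ≤ 1 / 2) {D : Finset V} (hD : Cvx T D)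
    {v u : V} (hv : v ∈ D) (hu : u ∈ D) (s : Finset (V × ℕ)) {x : V × ℕ → ℝ}
    (hx : ∀ j, |x j| ≤ 1 / 8) : |cov T θ D (tl s x) v u| ≤ θ ^ T.dist v u := by
  have t1 : θ < 1 := by nlinarith
  induction hk : T.dist v u generalizing u with
  | zero =>
    obtain rfl := hT.connected.dist_eq_zero_iff.1 hk
    rw [cov_self h0 t1 D (tl_pos hx), pow_zero]
    have := abs_le.1 (abs_mag_le (T := T) h0 t1 D (tl_pos (s := s) hx) v)
    rw [abs_le]
    constructor <;> nlinarith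
  | succ k ih =>
    obtain ⟨p, hp, h2⟩ := exists_parent hT (v := v) (u := u) (by
      rintro rfl; rw [SimpleGraph.dist_self] at hk; omega)
    have pD := hD v hv u hu p (by rw [SimpleGraph.dist_eq_one_iff_adj.2 hp]; omega)
    obtain ⟨a, m, -, hm, -, -, e⟩ := edge hT h0 t1 hp pD hu s hx
    obtain ⟨b1, b2⟩ := psi_bound h0 h1 hm
    rw [e v (by rw [T.dist_comm (u := u), T.dist_comm (u := p)]; omega), abs_mul,
      abs_of_nonneg b1, pow_succ' θ k]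
    exact mul_le_mul b2 (ih pD (by omega)) (abs_nonneg _) h0

theorem cov_lip (hT : T.IsTree) (h0 : 0 ≤ θ) (h1 : θ ^ 2 ≤ 1 / 2) {l : ℝ} (hl : 1 < l)
    {D : Finset V} (hD : Cvx T D) {v u : V} (hv : v ∈ D) (hu : u ∈ D) :
    ∃ c : V → ℝ, (∀ w, 0 ≤ c w) ∧
      ∑ w ∈ D, c w * (l ^ 2) ^ T.dist v w ≤ 2 ^ 18 * (l / (l - 1)) ^ 2 * (l ^ 2 * θ ^ 2) ^ T.dist v u ∧
      ∀ (s s' : Finset (V × ℕ)) (x x' : V × ℕ → ℝ), (∀ j, |x j| ≤ 1 / 8) → (∀ j, |x' j| ≤ 1 / 8) →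
        (cov T θ D (tl s x) v u - cov T θ D (tl s' x') v u) ^ 2 ≤
          ∑ w ∈ D, c w * (mag T θ D (tl s x) w - mag T θ D (tl s' x') w) ^ 2 := by
  have t1 : θ < 1 := by nlinarith
  have l0 : 0 < l - 1 := by linarith
  have l1 : 1 ≤ l / (l - 1) := by rw [le_div_iff₀ l0]; linarith
  have l2 : 1 ≤ l ^ 2 := by nlinarith
  induction hk : T.dist v u generalizing u with
  | zero =>
    obtain rfl := hT.connected.dist_eq_zero_iff.1 hk
    refine ⟨fun w => if w = v then 4 else 0, fun w => by positivity, ?_, fun s s' x x' hx hx' => ?_⟩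
    · simp only [ite_mul, zero_mul, sum_ite_eq', hv, if_true, SimpleGraph.dist_self, pow_zero]
      nlinarith
    · simp only [ite_mul, zero_mul, sum_ite_eq', hv, if_true]
      rw [cov_self h0 t1 D (tl_pos hx), cov_self h0 t1 D (tl_pos hx')]
      have a1 := abs_le.1 (abs_mag_le (T := T) h0 t1 D (tl_pos (s := s) hx) v)
      have a2 := abs_le.1 (abs_mag_le (T := T) h0 t1 D (tl_pos (s := s') hx') v)
      generalize mag T θ D (tl s x) v = a at *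
      generalize mag T θ D (tl s' x') v = b at *
      have : (a + b) ^ 2 ≤ 4 := by nlinarith
      nlinarith [sq_nonneg (a - b)]
  | succ k ih =>
    obtain ⟨p, hp, h2⟩ := exists_parent hT (v := v) (u := u) (by
      rintro rfl; rw [SimpleGraph.dist_self] at hk; omega)
    have pD := hD v hv u hu p (by rw [SimpleGraph.dist_eq_one_iff_adj.2 hp]; omega)
    have dp : T.dist v p = k := by omega
    obtain ⟨c, c0, c1, c2⟩ := ih pD dp
    obtain ⟨K, hK⟩ : ∃ K, K = l / (l - 1) * 2 ^ 17 * (θ ^ 2) ^ (k + 1) := ⟨_, rfl⟩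
    have K0 : 0 ≤ K := by rw [hK]; positivity
    refine ⟨fun w => l * θ ^ 2 * c w + ((if w = p then K else 0) + if w = u then K else 0),
      fun w => by have := c0 w; positivity, ?_, fun s s' x x' hx hx' => ?_⟩
    · simp only [add_mul, ite_mul, zero_mul, sum_add_distrib, sum_ite_eq', pD, hu, if_true,
        mul_assoc, ← mul_sum, dp, hk]
      have b1 : K * (l ^ 2) ^ k ≤ K * (l ^ 2) ^ (k + 1) :=
        mul_le_mul_of_nonneg_left (pow_le_pow_right₀ l2 (by omega)) K0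
      have b2 : K * (l ^ 2) ^ (k + 1) = l / (l - 1) * 2 ^ 17 * (l ^ 2 * θ ^ 2) ^ (k + 1) := by
        rw [hK, mul_pow]; ring
      have b3 := mul_le_mul_of_nonneg_left c1 (by positivity : 0 ≤ l * θ ^ 2)
      have b4 : l * θ ^ 2 * (2 ^ 18 * (l / (l - 1)) ^ 2 * (l ^ 2 * θ ^ 2) ^ k) +
          2 * (l / (l - 1) * 2 ^ 17 * (l ^ 2 * θ ^ 2) ^ (k + 1)) =
          2 ^ 18 * ((l / (l - 1)) ^ 2 * (l ^ 2 * θ ^ 2) ^ (k + 1)) := by
        rw [pow_succ (l ^ 2 * θ ^ 2)]; field_simp; ring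
      linarith
    · obtain ⟨a, m, ha, hm, e1, e2, e⟩ := edge hT h0 t1 hp pD hu s hx
      obtain ⟨a', m', ha', hm', e3, e4, e'⟩ := edge hT h0 t1 hp pD hu s' hx'
      have hs : ¬T.dist u v < T.dist p v := by
        rw [T.dist_comm (u := u), T.dist_comm (u := p)]; omega
      have b0 := mul_le_mul_of_nonneg_left (m_lip h0 h1 ha hm ha' hm' e1 e2 e3 e4)
        (by positivity : 0 ≤ 8 * θ)
      have b1 := (psi_lip h0 h1 hm hm').trans (b0.trans (le_of_eq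
        (by rw [← mul_assoc, show 8 * θ * 32 = 256 * θ by ring])))
      obtain ⟨b2, b3⟩ := psi_bound h0 h1 hm
      have b4 := cov_bound hT h0 h1 hD hv pD s' hx'
      have b5 := c2 s s' x x' hx hx'
      simp only [add_mul, ite_mul, zero_mul, sum_add_distrib, sum_ite_eq', pD, hu, if_true,
        mul_assoc, ← mul_sum]
      rw [e v hs, e' v hs, dp] at *
      generalize θ * (1 - m ^ 2) / (1 - θ ^ 2 * m ^ 2) = ψ at *
      generalize θ * (1 - m' ^ 2) / (1 - θ ^ 2 * m' ^ 2) = ψ' at *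
      generalize cov T θ D (tl s x) v p = C at *
      generalize cov T θ D (tl s' x') v p = C' at *
      generalize mag T θ D (tl s x) p - mag T θ D (tl s' x') p = P at *
      generalize mag T θ D (tl s x) u - mag T θ D (tl s' x') u = W at *
      generalize ∑ w ∈ D, c w * (mag T θ D (tl s x) w - mag T θ D (tl s' x') w) ^ 2 = E at *
      have d1 : (ψ * (C - C')) ^ 2 ≤ θ ^ 2 * E := by
        rw [mul_pow]
        exact mul_le_mul (pow_le_pow_left₀ b2 b3 2) b5 (sq_nonneg _) (sq_nonneg _)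
      have d2 : (C' * (ψ - ψ')) ^ 2 ≤ 2 ^ 17 * (θ ^ 2) ^ (k + 1) * (P ^ 2 + W ^ 2) := by
        have f1 : |C' * (ψ - ψ')| ≤ θ ^ k * (256 * θ * (|P| + |W|)) := by
          rw [abs_mul]; gcongr
        have f2 : (|P| + |W|) ^ 2 ≤ 2 * (P ^ 2 + W ^ 2) := by
          rw [← sq_abs P, ← sq_abs W]; nlinarith [sq_nonneg (|P| - |W|)]
        calc _ = |C' * (ψ - ψ')| ^ 2 := (sq_abs _).symm
          _ ≤ (θ ^ k * (256 * θ * (|P| + |W|))) ^ 2 := by gcongr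
          _ = 2 ^ 16 * (θ ^ 2) ^ (k + 1) * (|P| + |W|) ^ 2 := by ring
          _ ≤ 2 ^ 16 * (θ ^ 2) ^ (k + 1) * (2 * (P ^ 2 + W ^ 2)) := by gcongr
          _ = _ := by ring
      have d3 : ∀ X Y : ℝ, (X + Y) ^ 2 ≤ l * X ^ 2 + l / (l - 1) * Y ^ 2 := fun X Y => by
        have : l * X ^ 2 + l / (l - 1) * Y ^ 2 - (X + Y) ^ 2 = ((l - 1) * X - Y) ^ 2 / (l - 1) := by
          field_simp; ring
        have : 0 ≤ ((l - 1) * X - Y) ^ 2 / (l - 1) := by positivity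
        linarith
      have d4 := d3 (ψ * (C - C')) (C' * (ψ - ψ'))
      have d5 := mul_le_mul_of_nonneg_left d1 (by linarith : 0 ≤ l)
      have d6 := mul_le_mul_of_nonneg_left d2 (by linarith : 0 ≤ l / (l - 1))
      rw [hK]
      calc _ = (ψ * (C - C') + C' * (ψ - ψ')) ^ 2 := by ring
        _ ≤ _ := by linarith

theorem mean_insert (h0 : 0 ≤ θ) (h1 : θ < 1) (D : Finset V) {s : Finset (V × ℕ)} {a : V × ℕ}
    (ha : a ∉ s) {x : V × ℕ → ℝ} (hx : ∀ j, |x j| ≤ 1 / 8) (f : Finset V → ℝ) :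
    mean T θ D (tl (insert a s) x) f =
      (mean T θ D (tl s x) f + x a * mean T θ D (tl s x) fun S => f S * sp S a.1) /
        (1 + x a * mag T θ D (tl s x) a.1) := by
  have k : ∀ f, Zs T θ D (tl (insert a s) x) f =
      Zs T θ D (tl s x) f + x a * Zs T θ D (tl s x) fun S => f S * sp S a.1 := fun f => by
    unfold Zs tl
    rw [mul_sum, ← sum_add_distrib]
    exact sum_congr rfl fun S _ => by rw [prod_insert ha]; ring
  have := Zs_pos (T := T) h0 h1 D (tl_pos (s := s) hx)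
  simp only [mean, mag, k, one_mul]
  field_simp

theorem mag_insert (h0 : 0 ≤ θ) (h1 : θ < 1) (D : Finset V) {s : Finset (V × ℕ)} {a : V × ℕ}
    (ha : a ∉ s) {x : V × ℕ → ℝ} (hx : ∀ j, |x j| ≤ 1 / 8) (v : V) :
    mag T θ D (tl (insert a s) x) v = mag T θ D (tl s x) v +
      cov T θ D (tl s x) v a.1 * (x a / (1 + x a * mag T θ D (tl s x) a.1)) := by
  have b1 := abs_le.1 (abs_mag_le (T := T) h0 h1 D (tl_pos (s := s) hx) a.1)
  have b2 := abs_le.1 (hx a)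
  have : 0 < 1 + x a * mag T θ D (tl s x) a.1 := by nlinarith
  rw [mag, mean_insert h0 h1 D ha hx, cov, ← mag]
  field_simp
  ring

end Vale.Agent.P161
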