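import Vale.Agent.P161.Lip
import Vale.Agent.P143.Prob

/-!
The finite-volume revelation process.
-/

open Finset
open scoped Classical unitInterval

namespace Vale.Agent.P161

open Vale.Agent.P143 (Q Q_spec measurable_Q)

variable {V : Type} {T : SimpleGraph V} {θ ε : ℝ}

def key (τ : V → I) (j : V × ℕ) : ℕ ×ₗ I := toLex (j.2, τ j.1)

theorem key_le {τ : V → I} {i j : V × ℕ} (h : key τ i < key τ j) : i.2 ≤ j.2 := by
  rcases Prod.Lex.toLex_lt_toLex.1 h with h | h
  exacts [h.le, h.1.le]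

/-- The events strictly before `j`. -/
noncomputable def pre (D : Finset V) (τ : V → I) (j : V × ℕ) : Finset (V × ℕ) :=
  (D ×ˢ range (j.2 + 1)).filter fun i => key τ i < key τ j

theorem mem_pre {D : Finset V} {τ : V → I} {i j : V × ℕ} :
    i ∈ pre D τ j ↔ i.1 ∈ D ∧ key τ i < key τ j := by
  simp only [pre, mem_filter, mem_product, mem_range]
  exact ⟨fun h => ⟨h.1.1, h.2⟩, fun h => ⟨⟨h.1, Nat.lt_succ_of_le (key_le h.2)⟩, h.2⟩⟩

noncomputable def step (T : SimpleGraph V) (θ ε : ℝ) (D : Finset V) (τ : V → I) (z : V × ℕ → I)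
    (W : V × ℕ → ℝ) (j : V × ℕ) : ℝ :=
  if j.1 ∈ D then Q (ε * mag T θ D (tl (pre D τ j) fun i => ε * W i / 8) j.1) (z j) else 0

noncomputable def iter (T : SimpleGraph V) (θ ε : ℝ) (D : Finset V) (τ : V → I) (z : V × ℕ → I) :
    ℕ → V × ℕ → ℝ
  | 0 => fun _ => 0
  | t + 1 => step T θ ε D τ z (iter T θ ε D τ z t)

noncomputable def Wf (T : SimpleGraph V) (θ ε : ℝ) (D : Finset V) (τ : V → I) (z : V × ℕ → I)
    (j : V × ℕ) : ℝ :=
  iter T θ ε D τ z (D.card * (j.2 + 1)) j

variable {D : Finset V} {τ : V → I} {z z' : V × ℕ → I}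

theorem x_bound (e0 : 0 ≤ ε) (e1 : ε ≤ 1) {w : ℝ} (hw : |w| ≤ 1) : |ε * w / 8| ≤ 1 / 8 := by
  rw [abs_div, abs_mul, abs_of_nonneg e0, abs_of_pos (by norm_num : (0 : ℝ) < 8)]
  have := mul_le_one₀ e1 (abs_nonneg _) hw
  linarith

theorem em_bound (e0 : 0 ≤ ε) (e1 : ε ≤ 1) {w : ℝ} (hw : |w| ≤ 1) : |ε * w| ≤ 1 := by
  rw [abs_mul, abs_of_nonneg e0]
  exact mul_le_one₀ e1 (abs_nonneg _) hw

theorem iter_abs (h0 : 0 ≤ θ) (h1 : θ < 1) (e0 : 0 ≤ ε) (e1 : ε ≤ 1) (t : ℕ) (j : V × ℕ) :
    |iter T θ ε D τ z t j| ≤ 1 := by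
  induction t generalizing j with
  | zero => simp [iter]
  | succ t ih =>
    simp only [iter, step]
    split_ifs
    · exact (Q_spec (em_bound e0 e1 (abs_mag_le h0 h1 D
        (tl_pos fun i => x_bound e0 e1 (ih i)) _)) (z j).2).2
    · simp

theorem Wf_abs (h0 : 0 ≤ θ) (h1 : θ < 1) (e0 : 0 ≤ ε) (e1 : ε ≤ 1) (j : V × ℕ) :
    |Wf T θ ε D τ z j| ≤ 1 := iter_abs h0 h1 e0 e1 _ j

theorem step_congr {W W' : V × ℕ → ℝ} {j : V × ℕ} (h : ∀ i ∈ pre D τ j, W i = W' i)
    (hz : z j = z' j) : step T θ ε D τ z W j = step T θ ε D τ z' W' j := by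
  have : (tl (pre D τ j) fun i => ε * W i / 8) = tl (pre D τ j) fun i => ε * W' i / 8 := by
    ext S
    exact prod_congr rfl fun i hi => by simp only [h i hi]
  simp only [step, this, hz]

theorem card_pre_lt {i j : V × ℕ} (h : i ∈ pre D τ j) : (pre D τ i).card < (pre D τ j).card :=
  card_lt_card ⟨fun _ hk => mem_pre.2 ⟨(mem_pre.1 hk).1, (mem_pre.1 hk).2.trans (mem_pre.1 h).2⟩,
    fun h' => lt_irrefl _ (mem_pre.1 (h' h)).2⟩

theorem iter_stable (t t' : ℕ) (j : V × ℕ) (h : (pre D τ j).card < t) (h' : (pre D τ j).card < t') :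
    iter T θ ε D τ z t j = iter T θ ε D τ z t' j := by
  induction t generalizing j t' with
  | zero => omega
  | succ t ih =>
    cases t' with
    | zero => omega
    | succ t' =>
      exact step_congr (fun i hi => ih t' i (by have := card_pre_lt hi; omega)
        (by have := card_pre_lt hi; omega)) rfl

theorem card_pre_lt' {j : V × ℕ} (hj : j.1 ∈ D) : (pre D τ j).card < D.card * (j.2 + 1) := by
  rw [← card_range (j.2 + 1), ← card_product]
  exact card_lt_card ⟨filter_subset _ _, fun h => lt_irrefl _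
    (mem_pre.1 (h (mem_product.2 ⟨hj, self_mem_range_succ j.2⟩))).2⟩

theorem Wf_zero {j : V × ℕ} (hj : j.1 ∉ D) : Wf T θ ε D τ z j = 0 := by
  unfold Wf
  cases D.card * (j.2 + 1) <;> simp [iter, step, hj]

theorem Wf_eq (j : V × ℕ) : Wf T θ ε D τ z j = step T θ ε D τ z (Wf T θ ε D τ z) j := by
  by_cases hj : j.1 ∈ D
  · rw [Wf, iter_stable _ ((pre D τ j).card + 1) j (card_pre_lt' hj) (Nat.lt_succ_self _)]
    exact step_congr (fun i hi => iter_stable _ _ i (card_pre_lt hi)
      (card_pre_lt' (mem_pre.1 hi).1)) rfl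
  · rw [Wf_zero hj, step, if_neg hj]

theorem Wf_causal {a j : V × ℕ} (hz : ∀ i, key τ i < key τ a → z i = z' i)
    (hj : key τ j < key τ a) : Wf T θ ε D τ z j = Wf T θ ε D τ z' j := by
  have : ∀ t j, key τ j < key τ a → iter T θ ε D τ z t j = iter T θ ε D τ z' t j := by
    intro t
    induction t with
    | zero => exact fun _ _ => rfl
    | succ t ih =>
      exact fun j hj => step_congr (fun i hi => ih i ((mem_pre.1 hi).2.trans hj)) (hz j hj)
  exact this _ j hj

section meas

variable {Ω : Type} [MeasurableSpace Ω]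

theorem measurable_mean {L : Ω → Finset V → ℝ} (hL : ∀ S, Measurable fun ω => L ω S)
    (f : Finset V → ℝ) : Measurable fun ω => mean T θ D (L ω) f := by
  unfold mean Zs
  fun_prop

theorem measurable_tl (s : Finset (V × ℕ)) {x : Ω → V × ℕ → ℝ} (hx : ∀ j, Measurable fun ω => x ω j)
    (S : Finset V) : Measurable fun ω => tl s (x ω) S := by
  unfold tl
  fun_prop

theorem measurable_Wf {τ : Ω → V → I} {z : Ω → V × ℕ → I} (hτ : ∀ v, Measurable fun ω => τ ω v)
    (hz : ∀ j, Measurable fun ω => z ω j) (j : V × ℕ) :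
    Measurable fun ω => Wf T θ ε D (τ ω) (z ω) j := by
  have hl : ∀ i j, MeasurableSet {ω | key (τ ω) i < key (τ ω) j} := fun i j => by
    refine measurableSet_setOfPred.2 ?_
    simp only [key, Prod.Lex.toLex_lt_toLex]
    exact measurable_const.or (measurable_const.and
      (measurableSet_setOfPred.1 (measurableSet_lt (hτ _) (hτ _))))
  have k : ∀ t j, Measurable fun ω => iter T θ ε D (τ ω) (z ω) t j := by
    intro t
    induction t with
    | zero => exact fun _ => measurable_const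
    | succ t ih =>
      intro j
      simp only [iter, step]
      split_ifs
      · refine measurable_Q ((measurable_mean (fun S => ?_) _).const_mul ε)
          (measurable_subtype_coe.comp (hz j))
        simp only [tl, pre, prod_filter]
        exact Finset.measurable_prod _ fun i _ => Measurable.ite (hl _ _)
          (by have := ih i; fun_prop) measurable_const
      · exact measurable_const
  exact k _ j

end meas

theorem sp_map (g : V ≃ V) (S : Finset V) (v : V) : sp (S.map g.toEmbedding) (g v) = sp S v := by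
  simp [sp]

theorem wt_map (g : T ≃g T) (D S : Finset V) :
    wt T θ (D.map g.toEquiv.toEmbedding) (S.map g.toEquiv.toEmbedding) = wt T θ D S := by
  symm
  refine prod_nbij' (Sym2.map g) (Sym2.map g.symm) ?_ ?_ ?_ ?_ ?_ <;> intro e he <;>
    induction e with
  | h u v => ?_
  · obtain ⟨h1, h2⟩ := mem_filter.1 he
    obtain ⟨h3, h4⟩ := mk_mem_sym2_iff.1 h1
    exact mem_filter.2 ⟨mk_mem_sym2_iff.2 ⟨mem_map_of_mem _ h3, mem_map_of_mem _ h4⟩,
      g.map_rel_iff.2 h2⟩
  · obtain ⟨h1, h2⟩ := mem_filter.1 he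
    obtain ⟨h3, h4⟩ := mk_mem_sym2_iff.1 h1
    exact mem_filter.2 ⟨mk_mem_sym2_iff.2 ⟨mem_map_equiv.1 h3, mem_map_equiv.1 h4⟩,
      g.symm.map_rel_iff.2 h2⟩
  · simp
  · simp
  · simp only [Sym2.map_mk, Sym2.mul_mk]
    exact congrArg (fun t => (1 + θ * t) / 2) (congrArg₂ (· * ·) (sp_map g.toEquiv S u).symm
      (sp_map g.toEquiv S v).symm)

theorem Zs_map (g : T ≃g T) (D : Finset V) (L f : Finset V → ℝ) :
    Zs T θ (D.map g.toEquiv.toEmbedding) L f = Zs T θ D (fun S => L (S.map g.toEquiv.toEmbedding))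
      fun S => f (S.map g.toEquiv.toEmbedding) := by
  symm
  refine sum_nbij' (fun S => S.map g.toEquiv.toEmbedding)
    (fun S => S.map g.toEquiv.symm.toEmbedding) ?_ ?_ ?_ ?_ ?_
  · exact fun S hS => mem_powerset.2 (map_subset_map.2 (mem_powerset.1 hS))
  · intro S hS
    refine mem_powerset.2 fun v hv => ?_
    exact (mem_map' g.toEquiv.toEmbedding).1 (mem_powerset.1 hS (mem_map_equiv.1 hv))
  · intro S _; ext v; rw [mem_map_equiv, Equiv.symm_symm]; exact mem_map' _
  · intro S _; ext v; rw [mem_map_equiv, mem_map_equiv, Equiv.symm_symm, Equiv.apply_symm_apply]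
  · intro S _; rw [wt_map]

theorem Wf_map (g : T ≃g T) (D : Finset V) (τ : V → I) (z : V × ℕ → I) (j : V × ℕ) :
    Wf T θ ε (D.map g.toEquiv.toEmbedding) τ z (g j.1, j.2) =
      Wf T θ ε D (fun v => τ (g v)) (fun i => z (g i.1, i.2)) j := by
  have k : ∀ t (j : V × ℕ), iter T θ ε (D.map g.toEquiv.toEmbedding) τ z t (g j.1, j.2) =
      iter T θ ε D (fun v => τ (g v)) (fun i => z (g i.1, i.2)) t j := by
    intro t
    induction t with
    | zero => exact fun _ => rfl
    | succ t ih =>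
      intro j
      have e1 : ∀ S : Finset V, tl (pre (D.map g.toEquiv.toEmbedding) τ (g j.1, j.2))
          (fun i => ε * iter T θ ε (D.map g.toEquiv.toEmbedding) τ z t i / 8)
          (S.map g.toEquiv.toEmbedding) = tl (pre D (fun v => τ (g v)) j)
          (fun i => ε * iter T θ ε D (fun v => τ (g v)) (fun i => z (g i.1, i.2)) t i / 8) S := by
        intro S
        symm
        refine prod_nbij' (fun i => (g i.1, i.2)) (fun i => (g.symm i.1, i.2)) ?_ ?_ ?_ ?_ ?_
        · exact fun i hi => mem_pre.2 ⟨mem_map_of_mem _ (mem_pre.1 hi).1, (mem_pre.1 hi).2⟩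
        · intro i hi
          refine mem_pre.2 ⟨mem_map_equiv.1 (mem_pre.1 hi).1, ?_⟩
          simpa [key] using (mem_pre.1 hi).2
        · intro i _; simp
        · intro i _; simp
        · intro i _
          simp only [ih i]
          exact congrArg (fun t => 1 + _ * t) (sp_map g.toEquiv S i.1).symm
      have e2 : ∀ S : Finset V, sp (S.map g.toEquiv.toEmbedding) (g j.1) = sp S j.1 :=
        fun S => sp_map g.toEquiv S j.1
      have e3 : g j.1 ∈ D.map g.toEquiv.toEmbedding ↔ j.1 ∈ D := mem_map' g.toEquiv.toEmbedding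
      simp only [iter, step, mag, mean, Zs_map, e1, e2, e3]
  rw [Wf, card_map, k]
  rfl

end Vale.Agent.P161
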