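import Vale.Agent.P161.Law

/-!
Stability in mean square of the revelation process under enlarging the volume.
-/

open MeasureTheory ProbabilityTheory Filter Topology Finset Function
open scoped unitInterval ENNReal Classical

namespace Vale.Agent.P161

open Vale.Agent.P143 (Q Q_spec Q_lip measurable_Q dens_pos resample cdf cdf_image cdf_deriv cdf_inj
  Q_cdf)

variable {V K : Type} {T : SimpleGraph V} {θ ε : ℝ}

/-- The jump coefficient. -/
noncomputable def gj (ε m u : ℝ) : ℝ := ε * Q (ε * m) u / 8 / (1 + ε * Q (ε * m) u / 8 * m)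

theorem integral_gj (e0 : 0 ≤ ε) (e1 : ε ≤ 1) {m : ℝ} (hm : |m| ≤ 1) : ∫ u : I, gj ε m u = 0 := by
  have hm' := em_bound e0 e1 hm
  have h1 := unitInterval.measurePreserving_coe.integral_comp
    unitInterval.measurableEmbedding_coe (fun u => gj ε m u)
  rw [h1, unitInterval, ← cdf_image hm', integral_image_eq_integral_abs_deriv_smul measurableSet_Icc
    (fun w _ => (cdf_deriv (ε * m) w).hasDerivWithinAt) (cdf_inj hm'),
    setIntegral_congr_fun (g := fun w => ε / 16 * w) measurableSet_Icc,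
    integral_Icc_eq_integral_Ioc, ← intervalIntegral.integral_of_le (by norm_num),
    intervalIntegral.integral_const_mul, integral_id]
  · ring
  · intro w hw
    have := dens_pos hm' (abs_le.2 hw)
    beta_reduce
    rw [gj, Q_cdf hm' hw, abs_of_pos (half_pos this), smul_eq_mul,
      show 1 + ε * w / 8 * m = 1 + ε * m * w / 8 by ring]
    generalize 1 + ε * m * w / 8 = y at this
    field_simp
    ring

theorem den_bound {x m : ℝ} (hx : |x| ≤ 1 / 8) (hm : |m| ≤ 1) : 7 / 8 ≤ 1 + x * m := by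
  have : |x * m| ≤ 1 / 8 := by
    rw [abs_mul]; exact (mul_le_of_le_one_right (abs_nonneg _) hm).trans hx
  linarith [(abs_le.1 this).1]

theorem abs_xq (e0 : 0 ≤ ε) {w : ℝ} (hw : |w| ≤ 1) : |ε * w / 8| ≤ ε / 8 := by
  rw [abs_div, abs_mul, abs_of_nonneg e0, abs_of_pos (by norm_num : (0 : ℝ) < 8)]
  have := mul_le_of_le_one_right e0 hw
  linarith

theorem abs_gj (e0 : 0 ≤ ε) (e1 : ε ≤ 1) {m : ℝ} (hm : |m| ≤ 1) (u : I) : |gj ε m u| ≤ ε := by
  have q := (Q_spec (em_bound e0 e1 hm) u.2).2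
  have h1 := den_bound (x_bound e0 e1 q) hm
  rw [gj, abs_div, abs_of_pos (a := 1 + _) (by linarith), div_le_iff₀ (by linarith)]
  nlinarith [abs_xq e0 q]

theorem gj_lip (e0 : 0 ≤ ε) (e1 : ε ≤ 1) {m m' : ℝ} (hm : |m| ≤ 1) (hm' : |m'| ≤ 1) (u : I) :
    |gj ε m u - gj ε m' u| ≤ ε * |m - m'| := by
  have q := (Q_spec (em_bound e0 e1 hm) u.2).2
  have q' := (Q_spec (em_bound e0 e1 hm') u.2).2
  have h1 := den_bound (x_bound e0 e1 q) hm
  have h2 := den_bound (x_bound e0 e1 q') hm'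
  have h3 := Q_lip (em_bound e0 e1 hm) (em_bound e0 e1 hm') u.2
  have h4 := abs_xq e0 q
  have h5 := x_bound e0 e1 q'
  rw [← mul_sub, abs_mul, abs_of_nonneg e0] at h3
  have h6 : |ε * Q (ε * m) u / 8 - ε * Q (ε * m') u / 8| ≤ ε * |m - m'| / 8 := by
    rw [← sub_div, ← mul_sub, abs_div, abs_mul, abs_of_nonneg e0,
      abs_of_pos (by norm_num : (0 : ℝ) < 8)]
    have := mul_le_of_le_one_left (abs_nonneg (Q (ε * m) u - Q (ε * m') u)) e1
    have := mul_nonneg e0 (abs_nonneg (m - m'))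
    linarith
  unfold gj
  generalize ε * Q (ε * m) u / 8 = x at *
  generalize ε * Q (ε * m') u / 8 = x' at *
  rw [div_sub_div _ _ (by linarith) (by linarith), abs_div,
    abs_of_pos (a := _ * (1 + x' * m')) (mul_pos (by linarith) (by linarith)),
    div_le_iff₀ (mul_pos (by linarith) (by linarith)),
    show x * (1 + x' * m') - (1 + x * m) * x' = (x - x') - x * x' * (m - m') by ring]
  have h7 : |x * x' * (m - m')| ≤ ε / 8 * (1 / 8) * |m - m'| := by
    rw [abs_mul, abs_mul]; gcongr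
  have h8 : 7 / 8 * (7 / 8) ≤ (1 + x * m) * (1 + x' * m') :=
    mul_le_mul h1 h2 (by norm_num) (by linarith)
  have h9 := mul_nonneg e0 (abs_nonneg (m - m'))
  have h10 := mul_le_mul_of_nonneg_left h8 h9
  linarith [abs_sub (x - x') (x * x' * (m - m'))]

theorem sq_step {J : I → ℝ} (mJ : Measurable J) {b B : ℝ} (h0 : ∫ u, J u = 0)
    (hB : ∀ u, J u ^ 2 ≤ B) :
    ∫⁻ u, ENNReal.ofReal ((b + J u) ^ 2) ≤ ENNReal.ofReal (b ^ 2 + B) := by
  have iJ : Integrable J := Integrable.of_bound mJ.aestronglyMeasurable (B + 1)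
    (ae_of_all _ fun u => by
      rw [Real.norm_eq_abs]; nlinarith [hB u, sq_abs (J u), sq_nonneg (|J u| - 1)])
  have e : ∫ u, (b ^ 2 + B + 2 * b * J u) = b ^ 2 + B := by
    rw [integral_add (integrable_const _) (iJ.const_mul _), integral_const_mul, h0]; simp
  rw [← e, ofReal_integral_eq_lintegral_ofReal (f := fun u => b ^ 2 + B + 2 * b * J u)
    ((integrable_const _).add (iJ.const_mul _))
    (ae_of_all _ fun u => by have := hB u; simp only [Pi.zero_apply]; nlinarith [sq_nonneg (b + J u)])]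
  exact lintegral_mono fun u => ENNReal.ofReal_le_ofReal (by nlinarith [hB u])

theorem resample_le (i : K) {F G : (K → I) → ℝ} (mF : Measurable F) (F0 : ∀ ω, 0 ≤ F ω)
    (iG : Integrable G (P143.iid K)) (G0 : ∀ ω, 0 ≤ G ω)
    (h : ∀ ω, ∫⁻ u, ENNReal.ofReal (F (update ω i u)) ≤ ENNReal.ofReal (G ω)) :
    ∫ ω, F ω ∂P143.iid K ≤ ∫ ω, G ω ∂P143.iid K := by
  rw [integral_eq_lintegral_of_nonneg_ae (ae_of_all _ F0) mF.aestronglyMeasurable,
    resample i mF.ennreal_ofReal]
  refine ENNReal.toReal_le_of_le_ofReal (integral_nonneg G0) ?_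
  rw [ofReal_integral_eq_lintegral_ofReal iG (ae_of_all _ G0)]
  exact lintegral_mono h

theorem mag_consistent (hT : T.IsTree) {D D' : Finset V} (hD : Cvx T D) (hD' : Cvx T D')
    (h : D ⊆ D') {τ : V → I} {x : V × ℕ → ℝ} (hx : ∀ i, i.1 ∉ D → x i = 0) {j : V × ℕ}
    (hj : j.1 ∈ D) : mag T θ D (tl (pre D τ j) x) j.1 = mag T θ D' (tl (pre D' τ j) x) j.1 := by
  have e : tl (pre D' τ j) x = tl (pre D τ j) x := by
    ext S
    refine (prod_subset (fun i hi => mem_pre.2 ⟨h (mem_pre.1 hi).1, (mem_pre.1 hi).2⟩)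
      fun i hi hi' => ?_).symm
    rw [hx i fun h3 => hi' (mem_pre.2 ⟨h3, (mem_pre.1 hi).2⟩)]
    simp
  have k : ∀ S S', (∀ v ∈ D, sp S v = sp S' v) → tl (pre D τ j) x S = tl (pre D τ j) x S' :=
    fun S S' h => prod_congr rfl fun i hi => by rw [h _ (mem_pre.1 hi).1]
  simp only [e, mag, mean, Zs]
  rw [consistent hT hD hD' h ⟨_, hj⟩ fun S S' h => by rw [k S S' h, h _ hj],
    consistent hT hD hD' h ⟨_, hj⟩ fun S S' h => by rw [k S S' h]]

theorem geom_three (n : ℕ) : ∑ j ∈ range (n + 1), (3 : ℝ) ^ j ≤ 2 * 3 ^ n := by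
  rw [geom_sum_eq (by norm_num), pow_succ]
  have : (0 : ℝ) < 3 ^ n := by positivity
  linarith

theorem stability {d : ℕ} (hT : T.IsTree) (hreg : ∀ v, (T.neighborSet v).encard = d) (hd : 2 ≤ d)
    (h0 : 0 ≤ θ) (h1 : θ ^ 2 ≤ 1 / 2) (e0 : 0 ≤ ε) (e1 : ε ≤ 1) {l : ℝ} (hl : 1 < l)
    (hr : l ^ 2 * θ ^ 2 * (d - 1) < 1)
    (he : ε ^ 2 * (4 * (2 ^ 18 * (l / (l - 1)) ^ 2) + 5) ≤ (1 - l ^ 2 * θ ^ 2 * (d - 1)) / 2)
    {D D' : Finset V} (hD : Cvx T D) (hD' : Cvx T D') (h : D ⊆ D') {τ : V → I}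
    (hτ : Injective τ) {κ : V × ℕ → K} (hκ : Injective κ) (o : V) {A : ℝ} (hA : 0 ≤ A)
    (hA1 : ∀ u ∈ D', u ∉ D → 1 ≤ A * (l ^ 2) ^ T.dist o u) {j : V × ℕ} (hj : j.1 ∈ D) :
    ∫ ω, (Wf T θ ε D τ (fun i => ω (κ i)) j - Wf T θ ε D' τ (fun i => ω (κ i)) j) ^ 2
      ∂P143.iid K ≤ 2 * 3 ^ j.2 * (A * (l ^ 2) ^ T.dist o j.1) := by
  have t1 : θ < 1 := by nlinarith
  have l2 : 1 ≤ l ^ 2 := by nlinarith
  obtain ⟨η, hη⟩ : ∃ η, η = (1 - l ^ 2 * θ ^ 2 * (d - 1)) / 2 := ⟨_, rfl⟩
  obtain ⟨B, hB⟩ : ∃ B, B = 2 ^ 18 * (l / (l - 1)) ^ 2 := ⟨_, rfl⟩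
  rw [← hη, ← hB] at he
  have η0 : 0 < η := by rw [hη]; linarith
  let x : Finset V → (K → I) → V × ℕ → ℝ := fun D ω i => ε * Wf T θ ε D τ (fun i => ω (κ i)) i / 8
  have hx : ∀ D ω i, |x D ω i| ≤ 1 / 8 := fun D ω i => x_bound e0 e1 (Wf_abs h0 t1 e0 e1 i)
  have mx : ∀ D i, Measurable fun ω => x D ω i := fun D i =>
    ((measurable_Wf (τ := fun _ => τ) (z := fun (ω : K → I) i => ω (κ i))
      (fun _ => measurable_const) (fun j => measurable_pi_apply _) i).const_mul ε).div_const 8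
  let M : Finset V → Finset (V × ℕ) → (K → I) → V → ℝ := fun E s ω => mag T θ D' (tl s (x E ω))
  have hM : ∀ E s ω v, |M E s ω v| ≤ 1 := fun E s ω v => abs_mag_le h0 t1 D' (tl_pos (hx E ω)) v
  have mM : ∀ E s v, Measurable fun ω => M E s ω v := fun E s v =>
    measurable_mean (measurable_tl s (mx E)) _
  have iM : ∀ s v, Integrable (fun ω => (M D s ω v - M D' s ω v) ^ 2) (P143.iid K) := fun s v =>
    Integrable.of_bound (((mM D s v).sub (mM D' s v)).pow_const 2).aestronglyMeasurable 4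
      (ae_of_all _ fun ω => by
        have a1 := abs_le.1 (hM D s ω v)
        have a2 := abs_le.1 (hM D' s ω v)
        rw [Real.norm_eq_abs, abs_of_nonneg (sq_nonneg _)]
        nlinarith)
  have W1 : ∀ ω a, a.1 ∈ D' → Wf T θ ε D' τ (fun i => ω (κ i)) a =
      Q (ε * M D' (pre D' τ a) ω a.1) (ω (κ a)) := fun ω a ha => by rw [Wf_eq, step, if_pos ha]
  have W2 : ∀ ω a, a.1 ∈ D → Wf T θ ε D τ (fun i => ω (κ i)) a =
      Q (ε * M D (pre D' τ a) ω a.1) (ω (κ a)) := fun ω a ha => by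
    rw [Wf_eq, step, if_pos ha, mag_consistent hT hD hD' h (fun i hi => by simp [Wf_zero hi]) ha]
  have ρ : ∀ v w, A * (l ^ 2) ^ T.dist o w ≤ A * (l ^ 2) ^ T.dist o v * (l ^ 2) ^ T.dist v w :=
    fun v w => by
      rw [mul_assoc, ← pow_add]
      exact mul_le_mul_of_nonneg_left (pow_le_pow_right₀ l2 hT.connected.dist_triangle) hA
  have tot : ∀ a v, ∑ i ∈ pre D' τ a, η * (l ^ 2 * θ ^ 2) ^ T.dist v i.1 * 3 ^ i.2 ≤ 2 * 3 ^ a.2 := by
    intro a v
    refine (sum_le_sum_of_subset_of_nonneg (filter_subset _ _) fun _ _ _ => by positivity).trans ?_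
    rw [sum_product]
    simp only [← mul_sum, ← sum_mul]
    have b1 := sum_pow_dist hT hreg hd (by positivity) hr D' v
    have b2 : η * ∑ u ∈ D', (l ^ 2 * θ ^ 2) ^ T.dist v u ≤ 1 := by
      refine (mul_le_mul_of_nonneg_left b1 η0.le).trans (le_of_eq ?_)
      rw [show 1 - l ^ 2 * θ ^ 2 * (d - 1) = 2 * η by rw [hη]; ring]
      field_simp
    exact (mul_le_of_le_one_left (by positivity) b2).trans (geom_three _)
  have main : ∀ s : Finset (V × ℕ), (∀ a ∈ s, a.1 ∈ D' ∧ pre D' τ a ⊆ s) → ∀ v ∈ D',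
      ∫ ω, (M D s ω v - M D' s ω v) ^ 2 ∂P143.iid K ≤
        (∑ i ∈ s, η * (l ^ 2 * θ ^ 2) ^ T.dist v i.1 * 3 ^ i.2) * (A * (l ^ 2) ^ T.dist o v) := by
    intro s
    induction s using Finset.induction_on_max_value (key τ) with
    | empty =>
      intro _ v _
      have : ∀ y : V × ℕ → ℝ, tl ∅ y = fun _ => 1 := fun y => funext fun S => prod_empty
      simp [M, this]
    | insert a s ha hmax ih =>
      intro hs v hv
      obtain ⟨aD, as⟩ := hs a (mem_insert_self _ _)
      have lt : ∀ i ∈ s, key τ i < key τ a := fun i hi => lt_of_le_of_ne (hmax i hi)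
        fun h => ha (key_inj hτ h ▸ hi)
      have es : pre D' τ a = s := by
        ext i
        refine ⟨fun h => (mem_insert.1 (as h)).resolve_left ?_,
          fun h => mem_pre.2 ⟨(hs i (mem_insert_of_mem h)).1, lt i h⟩⟩
        rintro rfl
        exact lt_irrefl _ (mem_pre.1 h).2
      have ih' := ih fun i hi => ⟨(hs i (mem_insert_of_mem hi)).1, fun k hk =>
        es ▸ mem_pre.2 ⟨(mem_pre.1 hk).1, (mem_pre.1 hk).2.trans (lt i hi)⟩⟩
      have ih2 : ∀ w ∈ D', ∫ ω, (M D s ω w - M D' s ω w) ^ 2 ∂P143.iid K ≤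
          2 * 3 ^ a.2 * (A * (l ^ 2) ^ T.dist o v * (l ^ 2) ^ T.dist v w) := fun w hw =>
        (ih' w hw).trans (mul_le_mul (es ▸ tot a w) (ρ v w) (by positivity) (by positivity))
      obtain ⟨c, c0, c1, c2⟩ := cov_lip hT h0 h1 hl hD' hv aD
      rw [← hB] at c1
      have cs : ∀ E ω u, tl s (x E (update ω (κ a) u)) = tl s (x E ω) := fun E ω u => by
        ext S
        refine prod_congr rfl fun i hi => ?_
        simp only [x]
        rw [Wf_causal (a := a) (z' := fun i => ω (κ i))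
          (fun k hk => update_of_ne (a := κ k) (fun h => lt_irrefl _ (hκ h ▸ hk)) _ _) (lt i hi)]
      have up : ∀ E ω u, M E (insert a s) (update ω (κ a) u) v = M E s ω v +
          cov T θ D' (tl s (x E ω)) v a.1 * (x E (update ω (κ a) u) a /
            (1 + x E (update ω (κ a) u) a * M E s ω a.1)) := fun E ω u => by
        simp only [M]
        rw [mag_insert h0 t1 D' ha (hx E _), cs]
      have x1 : ∀ ω (u : I), x D' (update ω (κ a) u) a = ε * Q (ε * M D' s ω a.1) u / 8 :=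
        fun ω u => by simp only [x]; rw [W1 _ a aD, es, update_self]; simp only [M, cs]
      have x2 : a.1 ∈ D → ∀ ω (u : I), x D (update ω (κ a) u) a = ε * Q (ε * M D s ω a.1) u / 8 :=
        fun h ω u => by simp only [x]; rw [W2 _ a h, es, update_self]; simp only [M, cs]
      have mg : ∀ m, Measurable fun u : I => gj ε m u := fun m => by unfold gj; fun_prop
      have ig : ∀ m, |m| ≤ 1 → Integrable fun u : I => gj ε m u := fun m hm =>
        Integrable.of_bound (mg m).aestronglyMeasurable ε (ae_of_all _ (abs_gj e0 e1 hm))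
      have cb : ∀ ω, cov T θ D' (tl s (x D' ω)) v a.1 ^ 2 ≤ (θ ^ 2) ^ T.dist v a.1 := fun ω => by
        rw [← sq_abs, ← pow_mul, mul_comm, pow_mul]
        exact pow_le_pow_left₀ (abs_nonneg _) (cov_bound hT h0 h1 hD' hv aD s (hx D' ω)) 2
      have g2 : ∀ m, |m| ≤ 1 → ∀ u : I, gj ε m u ^ 2 ≤ ε ^ 2 := fun m hm u => by
        rw [← sq_abs]; exact pow_le_pow_left₀ (abs_nonneg _) (abs_gj e0 e1 hm u) 2
      have r1 := resample_le (κ a) (((mM D (insert a s) v).sub (mM D' (insert a s) v)).pow_const 2)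
        (fun _ => sq_nonneg _)
        (G := fun ω => (M D s ω v - M D' s ω v) ^ 2 + (2 * ε ^ 2 *
          (∑ w ∈ D', c w * (M D s ω w - M D' s ω w) ^ 2 +
            (θ ^ 2) ^ T.dist v a.1 * (M D s ω a.1 - M D' s ω a.1) ^ 2) +
          ε ^ 2 * (θ ^ 2) ^ T.dist v a.1 * if a.1 ∈ D then 0 else 1))
        ((iM s v).add ((((integrable_finset_sum _ fun w _ => (iM s w).const_mul _).add
          ((iM s a.1).const_mul _)).const_mul _).add (integrable_const _)))
        (fun ω => by
          have := sum_nonneg fun w (_ : w ∈ D') => mul_nonneg (c0 w)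
            (sq_nonneg (M D s ω w - M D' s ω w))
          positivity) fun ω => ?_
      · have i1 := integrable_finset_sum D' fun w _ => (iM s w).const_mul (c w)
        have i2 := (iM s a.1).const_mul ((θ ^ 2) ^ T.dist v a.1)
        rw [integral_add (iM s v) (((i1.fun_add i2).const_mul _).fun_add (integrable_const _)),
          integral_add ((i1.fun_add i2).const_mul _) (integrable_const _), integral_const_mul,
          integral_add i1 i2, integral_finset_sum _ fun w _ => (iM s w).const_mul _] at r1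
        simp only [integral_const_mul, integral_const, probReal_univ, one_smul] at r1
        rw [sum_insert ha, add_mul, add_comm]
        refine r1.trans (add_le_add (ih' v hv) ?_)
        obtain ⟨R, hR⟩ : ∃ R, R = A * (l ^ 2) ^ T.dist o v := ⟨_, rfl⟩
        have R0 : 0 ≤ R := by rw [hR]; positivity
        have b1 := ρ v a.1
        rw [← hR] at ih2 b1 ⊢
        have b2 : ∑ w ∈ D', c w * ∫ ω, (M D s ω w - M D' s ω w) ^ 2 ∂P143.iid K ≤
            2 * 3 ^ a.2 * R * (B * (l ^ 2 * θ ^ 2) ^ T.dist v a.1) := by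
          refine (sum_le_sum fun w hw => mul_le_mul_of_nonneg_left (ih2 w hw) (c0 w)).trans ?_
          refine le_trans (le_of_eq ?_) (mul_le_mul_of_nonneg_left c1 (by positivity))
          rw [mul_sum]
          exact sum_congr rfl fun w _ => by ring
        have b3 := mul_le_mul_of_nonneg_left (ih2 _ aD) (by positivity : 0 ≤ (θ ^ 2) ^ T.dist v a.1)
        have b4 : (if a.1 ∈ D then 0 else 1 : ℝ) ≤ 3 ^ a.2 * (R * (l ^ 2) ^ T.dist v a.1) := by
          split_ifs with h3
          · positivity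
          · exact one_le_mul_of_one_le_of_one_le (one_le_pow₀ (by norm_num))
              ((hA1 _ aD h3).trans b1)
        have b5 := mul_le_mul_of_nonneg_left b4
          (by positivity : 0 ≤ ε ^ 2 * (θ ^ 2) ^ T.dist v a.1)
        have b6 := mul_le_mul_of_nonneg_left (add_le_add b2 b3) (by positivity : 0 ≤ 2 * ε ^ 2)
        have b7 := mul_le_mul_of_nonneg_right he
          (by positivity : 0 ≤ (l ^ 2 * θ ^ 2) ^ T.dist v a.1 * 3 ^ a.2 * R)
        rw [mul_pow] at *
        linarith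
      · have b1 := c2 s s _ _ (hx D ω) (hx D' ω)
        have b2 := cb ω
        have b0 := sum_nonneg fun w (_ : w ∈ D') => mul_nonneg (c0 w)
          (sq_nonneg (M D s ω w - M D' s ω w))
        simp only [Pi.sub_apply, up, x1]
        generalize cov T θ D' (tl s (x D ω)) v a.1 = C at *
        generalize cov T θ D' (tl s (x D' ω)) v a.1 = C' at *
        by_cases h3 : a.1 ∈ D
        · simp only [x2 h3, if_pos h3]
          refine le_trans (le_of_eq (lintegral_congr fun u => ?_)) (sq_step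
            (J := fun u => C * gj ε (M D s ω a.1) u - C' * gj ε (M D' s ω a.1) u)
            (((mg _).const_mul _).sub ((mg _).const_mul _)) ?_ fun u => ?_)
          · unfold gj; congr 2; ring
          · rw [integral_sub ((ig _ (hM _ _ _ _)).const_mul _) ((ig _ (hM _ _ _ _)).const_mul _),
              integral_const_mul, integral_const_mul, integral_gj e0 e1 (hM _ _ _ _),
              integral_gj e0 e1 (hM _ _ _ _)]
            simp
          · have b3 := g2 _ (hM D s ω a.1) u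
            have b4 := pow_le_pow_left₀ (abs_nonneg _)
              (gj_lip e0 e1 (hM D s ω a.1) (hM D' s ω a.1) u) 2
            rw [sq_abs, mul_pow, sq_abs] at b4
            have b5 := mul_le_mul b1 b3 (sq_nonneg _) b0
            have b6 := mul_le_mul b2 b4 (sq_nonneg _) (by positivity)
            generalize gj ε (M D s ω a.1) u = g at *
            generalize gj ε (M D' s ω a.1) u = g' at *
            have b7 : (C * g - C' * g') ^ 2 ≤ 2 * ((C - C') ^ 2 * g ^ 2 + C' ^ 2 * (g - g') ^ 2) := by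
              nlinarith [sq_nonneg ((C - C') * g - C' * (g - g'))]
            simp only [M] at *
            linarith
        · simp only [x, Wf_zero h3, if_neg h3]
          refine le_trans (le_of_eq (lintegral_congr fun u => ?_)) (sq_step
            (J := fun u => -C' * gj ε (M D' s ω a.1) u) ((mg _).const_mul _) ?_ fun u => ?_)
          · unfold gj; congr 2; ring
          · rw [integral_const_mul, integral_gj e0 e1 (hM _ _ _ _), mul_zero]
          · have b5 := mul_le_mul b2 (g2 _ (hM D' s ω a.1) u) (sq_nonneg _) (by positivity)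
            have : 0 ≤ 2 * ε ^ 2 * (∑ w ∈ D', c w * (M D s ω w - M D' s ω w) ^ 2 +
              (θ ^ 2) ^ T.dist v a.1 * (M D s ω a.1 - M D' s ω a.1) ^ 2) := by positivity
            rw [mul_pow, neg_sq]
            linarith
  have f1 := (main (pre D' τ j) (fun a ha => ⟨(mem_pre.1 ha).1, fun k hk =>
    mem_pre.2 ⟨(mem_pre.1 hk).1, (mem_pre.1 hk).2.trans (mem_pre.1 ha).2⟩⟩) _ (h hj)).trans
    (mul_le_mul_of_nonneg_right (tot j j.1) (by positivity))
  refine le_trans (integral_mono_of_nonneg (ae_of_all _ fun ω => sq_nonneg _) (iM _ _)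
    (ae_of_all _ fun ω => ?_)) f1
  beta_reduce
  rw [W1 ω j (h hj), W2 ω j hj, ← sq_abs, ← sq_abs (M _ _ _ _ - _)]
  refine pow_le_pow_left₀ (abs_nonneg _) ((Q_lip (em_bound e0 e1 (hM _ _ _ _))
    (em_bound e0 e1 (hM _ _ _ _)) (ω _).2).trans ?_) 2
  rw [← mul_sub, abs_mul, abs_of_nonneg e0]
  have := mul_le_of_le_one_left (abs_nonneg (M D (pre D' τ j) ω j.1 - M D' (pre D' τ j) ω j.1)) e1
  linarith [abs_nonneg (M D (pre D' τ j) ω j.1 - M D' (pre D' τ j) ω j.1)]

end Vale.Agent.P161
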