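import Vale.Agent.P161.Defs

/-!
Metric facts about trees: sides of an edge, convex finite sets, balls, level sets.
-/

open Finset
open scoped Classical

namespace Vale.Agent.P161

variable {V : Type} {T : SimpleGraph V}

theorem dist_add_le {u v x : V} (q : T.Walk u v) (hx : x ∈ q.support) :
    T.dist u x + T.dist x v ≤ q.length := by
  have h := congrArg SimpleGraph.Walk.length (q.take_spec hx)
  rw [SimpleGraph.Walk.length_append] at h
  have := SimpleGraph.dist_le (q.takeUntil x hx)
  have := SimpleGraph.dist_le (q.dropUntil x hx)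
  omega

theorem reach_of_lt (hT : T.IsTree) {p w x : V} (h : T.dist w x < T.dist p x) :
    (T.deleteEdges {s(p, w)}).Reachable w x := by
  obtain ⟨q, hq⟩ := hT.connected.exists_walk_length_eq_dist w x
  refine SimpleGraph.reachable_deleteEdges_iff_exists_walk.2 ⟨q, fun he => ?_⟩
  have := dist_add_le q (q.fst_mem_support_of_mem_edges he)
  omega

theorem side_iff (hT : T.IsTree) {p w : V} (h : T.Adj p w) (x : V) :
    (T.deleteEdges {s(p, w)}).Reachable w x ↔ T.dist w x < T.dist p x := by
  refine ⟨fun h1 => ?_, reach_of_lt hT⟩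
  by_contra h2
  have h3 : T.dist p x < T.dist w x := by
    have := hT.dist_ne_of_adj x h
    rw [T.dist_comm (u := x), T.dist_comm (u := x)] at this
    omega
  have h4 := reach_of_lt hT h3
  rw [Sym2.eq_swap] at h4
  exact SimpleGraph.isBridge_iff.1 (SimpleGraph.isAcyclic_iff_forall_adj_isBridge.1 hT.isAcyclic h)
    (h4.trans h1.symm)

/-- The only edge between the two sides of an edge is the edge itself. -/
theorem cross (hT : T.IsTree) {p w x y : V} (h : T.Adj p w) (hxy : T.Adj x y)
    (hx : ¬T.dist w x < T.dist p x) (hy : T.dist w y < T.dist p y) : x = p ∧ y = w := by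
  by_cases he : s(x, y) = s(p, w)
  · rcases Sym2.eq_iff.1 he with h1 | ⟨rfl, rfl⟩
    · exact h1
    · exact absurd (by rw [SimpleGraph.dist_self, SimpleGraph.dist_eq_one_iff_adj.2 h]; omega) hx
  · refine absurd ((side_iff hT h x).1 (((side_iff hT h y).2 hy).trans
      (SimpleGraph.Adj.reachable ?_))) hx
    rw [SimpleGraph.deleteEdges_adj]
    exact ⟨hxy.symm, fun h' => he (Sym2.eq_swap.trans h')⟩

theorem cross_walk (hT : T.IsTree) {p w x y : V} (h : T.Adj p w) (q : T.Walk x y)
    (hx : ¬T.dist w x < T.dist p x) (hy : T.dist w y < T.dist p y) : w ∈ q.support := by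
  induction q with
  | nil => exact absurd hy hx
  | @cons a b c hab q ih =>
    by_cases hb : T.dist w b < T.dist p b
    · rw [← (cross hT h hab hx hb).2]; simp
    · exact List.mem_cons_of_mem _ (by simpa using ih hb hy)

theorem exists_parent (hT : T.IsTree) {v u : V} (h : v ≠ u) :
    ∃ p, T.Adj p u ∧ T.dist v p + 1 = T.dist v u := by
  obtain ⟨q, hq⟩ := hT.connected.exists_walk_length_eq_dist u v
  cases q with
  | nil => exact absurd rfl h
  | @cons _ p _ hp q =>
    refine ⟨p, hp.symm, ?_⟩
    have h1 := SimpleGraph.dist_le q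
    have h2 := hT.connected.dist_triangle (u := v) (v := p) (w := u)
    rw [SimpleGraph.dist_eq_one_iff_adj.2 hp.symm] at h2
    rw [SimpleGraph.Walk.length_cons, T.dist_comm] at hq
    rw [T.dist_comm] at h1
    omega

theorem mem_support_of_btw (hT : T.IsTree) {v u x : V}
    (h : T.dist v x + T.dist x u = T.dist v u) (q : T.Walk v u) : x ∈ q.support := by
  by_cases hv : v = x
  · subst hv; simp
  obtain ⟨p, hp, h1⟩ := exists_parent hT hv
  have h2 := hT.connected.dist_triangle (u := v) (v := p) (w := u)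
  refine cross_walk hT hp q ?_ (by omega)
  rw [T.dist_comm (u := x), T.dist_comm (u := p)]
  omega

/-- Convex finite vertex sets. -/
def Cvx (T : SimpleGraph V) (D : Finset V) : Prop :=
  ∀ v ∈ D, ∀ u ∈ D, ∀ x, T.dist v x + T.dist x u = T.dist v u → x ∈ D

theorem cvx_of_connected (hT : T.IsTree) {D : Finset V} (h : (T.induce (D : Set V)).Connected) :
    Cvx T D := by
  intro v hv u hu x hx
  obtain ⟨q⟩ := h ⟨v, hv⟩ ⟨u, hu⟩
  have := mem_support_of_btw hT hx (q.map (SimpleGraph.Embedding.induce (D : Set V)).toHom)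
  obtain ⟨y, -, rfl⟩ := List.mem_map.1
    (SimpleGraph.Walk.support_map (SimpleGraph.Embedding.induce (D : Set V)).toHom q ▸ this)
  exact y.2

theorem cvx_singleton (hT : T.IsTree) (o : V) : Cvx T {o} := by
  intro v hv u hu x hx
  rw [mem_singleton] at *
  subst hv hu
  rw [SimpleGraph.dist_self] at hx
  exact (hT.connected.dist_eq_zero_iff.1 (by omega : T.dist u x = 0)).symm

theorem exists_leaf (hT : T.IsTree) {D D' : Finset V} (hD : Cvx T D) (hD' : Cvx T D')
    (h : D ⊆ D') (hne : D.Nonempty) (h2 : D ≠ D') :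
    ∃ p z, z ∈ D' ∧ z ∉ D ∧ p ∈ D' ∧ T.Adj p z ∧
      D'.filter (fun x => T.dist z x < T.dist p x) = {z} ∧ Cvx T (D'.erase z) := by
  obtain ⟨o, ho⟩ := hne
  obtain ⟨z, hz, hm⟩ := (D' \ D).exists_max_image (T.dist o)
    (sdiff_nonempty.2 fun h3 => h2 (h.antisymm h3))
  obtain ⟨z1, z2⟩ := mem_sdiff.1 hz
  obtain ⟨p, hp, h1⟩ := exists_parent hT (v := o) (u := z) fun h3 => z2 (h3 ▸ ho)
  have d1 := SimpleGraph.dist_eq_one_iff_adj.2 hp
  have k : ∀ y ∈ D', T.dist z y < T.dist p y → y = z := by
    intro y hy h3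
    by_contra h4
    obtain ⟨q, hq⟩ := hT.connected.exists_walk_length_eq_dist o y
    have h5 := dist_add_le q (cross_walk hT hp q (by
      rw [T.dist_comm (u := z), T.dist_comm (u := p)]; omega) h3)
    have h6 := hT.connected.dist_triangle (u := o) (v := z) (w := y)
    have h7 := hT.connected.pos_dist_of_ne (Ne.symm h4)
    have h8 : y ∈ D := by
      by_contra h8
      have := hm y (mem_sdiff.2 ⟨hy, h8⟩)
      omega
    exact z2 (hD o ho y h8 z (by omega))
  refine ⟨p, z, z1, z2, hD' o (h ho) z z1 p (by omega), hp, ?_, ?_⟩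
  · ext y
    rw [mem_filter, mem_singleton]
    exact ⟨fun h3 => k y h3.1 h3.2, fun h3 => ⟨h3 ▸ z1, by
      rw [h3, SimpleGraph.dist_self, d1]; omega⟩⟩
  · intro v hv u hu x hx
    obtain ⟨v1, v2⟩ := mem_erase.1 hv
    obtain ⟨u1, u2⟩ := mem_erase.1 hu
    refine mem_erase.2 ⟨?_, hD' v v2 u u2 x hx⟩
    rintro rfl
    have a1 := mt (k v v2) v1
    have a2 := mt (k u u2) u1
    have a3 := hT.dist_ne_of_adj v hp
    have a4 := hT.connected.dist_triangle (u := v) (v := p) (w := u)
    rw [T.dist_comm (u := x), T.dist_comm (u := p)] at a1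
    omega

section reg

variable {d : ℕ}

theorem level_card (hT : T.IsTree) (hreg : ∀ v, (T.neighborSet v).encard = d) (v : V) (k : ℕ) :
    {u | T.dist v u = k + 1}.encard ≤ (d * (d - 1) ^ k : ℕ) := by
  have hf : ∀ v, (T.neighborSet v).Finite := fun v =>
    Set.finite_of_encard_eq_coe (hreg v)
  induction k with
  | zero =>
    rw [pow_zero, mul_one, ← hreg v]
    exact Set.encard_le_encard fun u hu => SimpleGraph.dist_eq_one_iff_adj.1 hu
  | succ k ih =>
    have h1 : {u | T.dist v u = k + 1}.Finite := Set.finite_of_encard_le_coe ih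
    let ch : V → Finset V := fun p => (hf p).toFinset.filter fun u => T.dist v u = k + 1 + 1
    have h2 : {u | T.dist v u = k + 1 + 1} ⊆ (h1.toFinset.biUnion ch : Finset V) := by
      intro u hu
      have hu' : T.dist v u = k + 1 + 1 := hu
      obtain ⟨p, hp, h3⟩ := exists_parent hT (v := v) (u := u) (by
        rintro rfl; rw [SimpleGraph.dist_self] at hu'; omega)
      simp only [coe_biUnion, Set.mem_iUnion, mem_coe, Set.Finite.mem_toFinset, ch, mem_filter]
      exact ⟨p, show T.dist v p = k + 1 by omega, hp, hu'⟩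
    refine (Set.encard_le_encard h2).trans ?_
    rw [Set.encard_coe_eq_coe_finsetCard, Nat.cast_le]
    have h3 : h1.toFinset.card ≤ d * (d - 1) ^ k := by
      rw [← Nat.cast_le (α := ℕ∞), ← Set.encard_coe_eq_coe_finsetCard, Set.Finite.coe_toFinset]
      exact ih
    refine (card_biUnion_le_card_mul _ _ (d - 1) fun p hp => ?_).trans ?_
    · have hp' : T.dist v p = k + 1 := by simpa using hp
      obtain ⟨q, hq, h4⟩ := exists_parent hT (v := v) (u := p) (by
        rintro rfl; rw [SimpleGraph.dist_self] at hp'; omega)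
      have h5 : (hf p).toFinset.card = d := by
        rw [← Nat.cast_inj (R := ℕ∞), ← Set.encard_coe_eq_coe_finsetCard, Set.Finite.coe_toFinset]
        exact hreg p
      have h6 : ch p ⊆ (hf p).toFinset.erase q := fun u hu => by
        obtain ⟨u1, u2⟩ := mem_filter.1 hu
        exact mem_erase.2 ⟨by rintro rfl; omega, u1⟩
      refine (card_le_card h6).trans ?_
      rw [card_erase_of_mem (by simpa using hq.symm), h5]
    · rw [pow_succ, ← mul_assoc]
      exact Nat.mul_le_mul_right _ h3

theorem ball_finite (hT : T.IsTree) (hreg : ∀ v, (T.neighborSet v).encard = d) (v : V) (R : ℕ) :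
    {u | T.dist v u ≤ R}.Finite := by
  induction R with
  | zero =>
    exact (Set.finite_singleton v).subset fun u hu =>
      (hT.connected.dist_eq_zero_iff.1 (Nat.le_zero.1 hu)).symm
  | succ R ih =>
    refine (ih.union (Set.finite_of_encard_le_coe (level_card hT hreg v R))).subset fun u hu => ?_
    have hu' : T.dist v u ≤ R + 1 := hu
    simp only [Set.mem_union, Set.mem_setOf_eq]
    omega

theorem sum_pow_dist (hT : T.IsTree) (hreg : ∀ v, (T.neighborSet v).encard = d) (hd : 2 ≤ d)
    {r : ℝ} (hr : 0 ≤ r) (h1 : r * (d - 1) < 1) (D : Finset V) (v : V) :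
    ∑ u ∈ D, r ^ T.dist v u ≤ 2 / (1 - r * (d - 1)) := by
  have hd' : (2 : ℝ) ≤ d := by exact_mod_cast hd
  have h0 : 0 ≤ r * (d - 1) := mul_nonneg hr (by linarith)
  rw [← sum_fiberwise_of_maps_to (t := D.image (T.dist v)) (g := T.dist v)
    fun u hu => mem_image_of_mem _ hu]
  have k : ∀ k, ∑ u ∈ D with T.dist v u = k, r ^ T.dist v u ≤ 2 * (r * (d - 1)) ^ k := by
    intro k
    rw [sum_congr rfl (g := fun _ => r ^ k) fun u hu => by rw [(mem_filter.1 hu).2], sum_const,
      nsmul_eq_mul, mul_pow, mul_comm (r ^ k), ← mul_assoc]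
    refine mul_le_mul_of_nonneg_right ?_ (by positivity)
    cases k with
    | zero =>
      have : (D.filter fun u => T.dist v u = 0).card ≤ 1 := card_le_one.2 fun a ha b hb =>
        (hT.connected.dist_eq_zero_iff.1 (mem_filter.1 ha).2).symm.trans
          (hT.connected.dist_eq_zero_iff.1 (mem_filter.1 hb).2)
      have h2 : ((D.filter fun u => T.dist v u = 0).card : ℝ) ≤ 1 := by exact_mod_cast this
      rw [pow_zero]; linarith
    | succ k =>
      have h2 : (D.filter fun u => T.dist v u = k + 1).card ≤ d * (d - 1) ^ k := by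
        rw [← Nat.cast_le (α := ℕ∞), ← Set.encard_coe_eq_coe_finsetCard]
        refine (Set.encard_le_encard fun u hu => ?_).trans (level_card hT hreg v k)
        exact (mem_filter.1 (mem_coe.1 hu)).2
      have h3 : ((D.filter fun u => T.dist v u = k + 1).card : ℝ) ≤ d * (d - 1) ^ k := by
        have := (Nat.cast_le (α := ℝ)).2 h2
        rwa [Nat.cast_mul, Nat.cast_pow, Nat.cast_sub (by omega), Nat.cast_one] at this
      have h4 : (0 : ℝ) ≤ (d - 1) ^ k := pow_nonneg (by linarith) _
      rw [pow_succ]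
      nlinarith
  refine (sum_le_sum fun j _ => k j).trans ?_
  rw [← mul_sum, div_eq_mul_inv, ← tsum_geometric_of_lt_one h0 h1]
  exact mul_le_mul_of_nonneg_left ((summable_geometric_of_lt_one h0 h1).sum_le_tsum _
    fun _ _ => by positivity) zero_le_two

end reg

/-- The ball of radius `R` as a finite set. -/
noncomputable def ball (T : SimpleGraph V) (v : V) (R : ℕ) : Finset V :=
  if h : {u | T.dist v u ≤ R}.Finite then h.toFinset else ∅

theorem mem_ball {d : ℕ} (hT : T.IsTree) (hreg : ∀ v, (T.neighborSet v).encard = d) {v u : V}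
    {R : ℕ} : u ∈ ball T v R ↔ T.dist v u ≤ R := by
  rw [ball, dif_pos (ball_finite hT hreg v R)]; simp

theorem cvx_ball {d : ℕ} (hT : T.IsTree) (hreg : ∀ v, (T.neighborSet v).encard = d) (o : V)
    (R : ℕ) : Cvx T (ball T o R) := by
  intro v hv u hu x hx
  rw [mem_ball hT hreg] at *
  obtain ⟨q, hq⟩ := hT.connected.exists_walk_length_eq_dist o v
  obtain ⟨q', hq'⟩ := hT.connected.exists_walk_length_eq_dist o u
  have := mem_support_of_btw hT hx (q.reverse.append q')
  rw [SimpleGraph.Walk.mem_support_append_iff, SimpleGraph.Walk.support_reverse,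
    List.mem_reverse] at this
  rcases this with h | h
  · have := dist_add_le q h; omega
  · have := dist_add_le q' h; omega

theorem dist_iso (hT : T.IsTree) (g : T ≃g T) (u v : V) : T.dist (g u) (g v) = T.dist u v := by
  have k : ∀ (g : T ≃g T) u v, T.dist (g u) (g v) ≤ T.dist u v := fun g u v => by
    obtain ⟨q, hq⟩ := hT.connected.exists_walk_length_eq_dist u v
    have := SimpleGraph.dist_le (q.map g.toHom)
    rwa [SimpleGraph.Walk.length_map, hq] at this
  refine (k g u v).antisymm ?_
  simpa using k g.symm (g u) (g v)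

theorem ball_map {d : ℕ} (hT : T.IsTree) (hreg : ∀ v, (T.neighborSet v).encard = d) (g : T ≃g T)
    (v : V) (R : ℕ) : ball T (g v) R = (ball T v R).map g.toEquiv.toEmbedding := by
  ext u
  obtain ⟨u, rfl⟩ := g.surjective u
  rw [mem_ball hT hreg, dist_iso hT, ← mem_ball hT hreg]
  exact (mem_map' g.toEquiv.toEmbedding).symm

end Vale.Agent.P161
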